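import Vale.Agent.P043.Elim

open scoped BigOperators Topology
open Filter

namespace Vale.Agent.P043

variable {G : Type*} [AddCommGroup G]

theorem act_apply_eq (P : AddMonoidAlgebra ℝ G) (φ : G → ℝ) (x : G) :
    act ℝ P φ x = ∑ g ∈ P.coeff.support, P.coeff g * φ (x + g) := by
  unfold act
  rw [AddMonoidAlgebra.lift_apply]
  simp [Finsupp.sum, shiftHom]

/-- boundedness -/
def Bdd (φ : G → ℝ) : Prop := ∃ C, ∀ x, |φ x| ≤ C

theorem Bdd.actP {φ : G → ℝ} (h : Bdd φ) (P : AddMonoidAlgebra ℝ G) :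
    Bdd (act ℝ P φ) := by
  obtain ⟨C, hC⟩ := h
  refine ⟨∑ g ∈ P.coeff.support, |P.coeff g| * C, fun x => ?_⟩
  rw [act_apply_eq]
  refine (Finset.abs_sum_le_sum_abs _ _).trans (Finset.sum_le_sum fun g _ => ?_)
  rw [abs_mul]
  exact mul_le_mul_of_nonneg_left (hC _) (abs_nonneg _)

theorem Bdd.sub {φ ψ : G → ℝ} (h : Bdd φ) (h' : Bdd ψ) : Bdd (φ - ψ) := by
  obtain ⟨C, hC⟩ := h
  obtain ⟨D, hD⟩ := h'
  refine ⟨C + D, fun x => ?_⟩
  exact (abs_sub _ _).trans (add_le_add (hC x) (hD x))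

/-- averaging element -/
noncomputable def avgEl (u : G) (K : ℕ) : AddMonoidAlgebra ℝ G :=
  (1 / (K : ℝ)) • ∑ k ∈ Finset.range K, mon ℝ (k • u)

theorem act_avgEl (u : G) (K : ℕ) (φ : G → ℝ) (x : G) :
    act ℝ (avgEl u K) φ x = (1 / (K : ℝ)) * ∑ k ∈ Finset.range K, φ (x + k • u) := by
  unfold avgEl
  rw [map_smul]
  simp only [LinearMap.smul_apply, Pi.smul_apply, smul_eq_mul]
  rw [act_sum_apply]
  simp [act_mon]

/-- `a` is the average of `φ` along `u` (with respect to a fixed ultrafilter) -/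
def IsAvg (u : G) (φ a : G → ℝ) : Prop :=
  ∀ x, Tendsto (fun K => act ℝ (avgEl u K) φ x) (hyperfilter ℕ : Filter ℕ) (𝓝 (a x))

theorem exists_isAvg (u : G) (φ : G → ℝ) (h0 : ∀ x, 0 ≤ φ x) (h1 : ∀ x, φ x ≤ 1) :
    ∃ a : G → ℝ, IsAvg u φ a ∧ ∀ x, 0 ≤ a x ∧ a x ≤ 1 := by
  have key : ∀ x, ∃ y ∈ Set.Icc (0 : ℝ) 1,
      Tendsto (fun K => act ℝ (avgEl u K) φ x) (hyperfilter ℕ : Filter ℕ) (𝓝 y) := by
    intro x
    have hc : IsCompact (Set.Icc (0 : ℝ) 1) := isCompact_Icc
    have hmem : ∀ K, act ℝ (avgEl u K) φ x ∈ Set.Icc (0 : ℝ) 1 := by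
      intro K
      rw [act_avgEl]
      rcases Nat.eq_zero_or_pos K with rfl | hK
      · simp
      · have hK' : (0 : ℝ) < K := by exact_mod_cast hK
        constructor
        · exact mul_nonneg (by positivity) (Finset.sum_nonneg fun k _ => h0 _)
        · have : ∑ k ∈ Finset.range K, φ (x + k • u) ≤ K := by
            calc _ ≤ ∑ k ∈ Finset.range K, (1 : ℝ) := Finset.sum_le_sum fun k _ => h1 _
              _ = K := by simp
          rw [one_div, inv_mul_le_iff₀ hK']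
          simpa using this
    have := hc.ultrafilter_le_nhds ((hyperfilter ℕ).map (fun K => act ℝ (avgEl u K) φ x)) (by
      rw [Ultrafilter.coe_map, le_principal_iff, mem_map]
      exact Filter.univ_mem' hmem)
    exact this
  choose a ha1 ha2 using key
  exact ⟨a, ha2, fun x => ha1 x⟩

theorem tendsto_act {l : Filter ℕ} {ψ : ℕ → G → ℝ} {a : G → ℝ}
    (h : ∀ x, Tendsto (fun K => ψ K x) l (𝓝 (a x))) (P : AddMonoidAlgebra ℝ G) (x : G) :
    Tendsto (fun K => act ℝ P (ψ K) x) l (𝓝 (act ℝ P a x)) := by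
  simp only [act_apply_eq]
  exact tendsto_finsetSum _ fun g _ => (h (x + g)).const_mul _

theorem IsAvg.actP {u : G} {φ a : G → ℝ} (h : IsAvg u φ a) (P : AddMonoidAlgebra ℝ G) :
    IsAvg u (act ℝ P φ) (act ℝ P a) := by
  intro x
  have : ∀ K, act ℝ (avgEl u K) (act ℝ P φ) =
      act ℝ P (act ℝ (avgEl u K) φ) := by
    intro K
    rw [← act_mul_apply, ← act_mul_apply, mul_comm]
  simp only [this]
  exact tendsto_act h P x

theorem IsAvg.sub {u : G} {φ a φ' a' : G → ℝ} (h : IsAvg u φ a) (h' : IsAvg u φ' a') :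
    IsAvg u (φ - φ') (a - a') := by
  intro x
  simp only [map_sub, Pi.sub_apply]
  exact (h x).sub (h' x)

theorem IsAvg.unique {u : G} {φ a a' : G → ℝ} (h : IsAvg u φ a) (h' : IsAvg u φ a') : a = a' := by
  ext x
  exact tendsto_nhds_unique (h x) (h' x)

theorem isAvg_of_inv {u : G} {φ : G → ℝ} (h : ∀ x, φ (x + u) = φ x) : IsAvg u φ φ := by
  intro x
  have h2 : ∀ k : ℕ, φ (x + k • u) = φ x := by
    intro k
    induction k with
    | zero => simp
    | succ k ih => rw [succ_nsmul, ← add_assoc, h, ih]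
  have h3 : ∀ K : ℕ, K ≠ 0 → act ℝ (avgEl u K) φ x = φ x := by
    intro K hK
    rw [act_avgEl]
    simp only [h2, Finset.sum_const, Finset.card_range, nsmul_eq_mul]
    field_simp
  refine Tendsto.congr' ?_ tendsto_const_nhds
  have : ∀ᶠ K in (atTop : Filter ℕ), K ≠ 0 := eventually_ne_atTop 0
  filter_upwards [this.filter_mono Nat.hyperfilter_le_atTop] with K hK
  exact (h3 K hK).symm

theorem IsAvg.inv {u : G} {φ a : G → ℝ} (h : IsAvg u φ a) (hb : Bdd φ) (x : G) :
    a (x + u) = a x := by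
  obtain ⟨C, hC⟩ := hb
  have h1 : Tendsto (fun K => act ℝ (avgEl u K) φ (x + u) - act ℝ (avgEl u K) φ x)
      (hyperfilter ℕ : Filter ℕ) (𝓝 (a (x + u) - a x)) := (h (x + u)).sub (h x)
  have h2 : Tendsto (fun K : ℕ => act ℝ (avgEl u K) φ (x + u) - act ℝ (avgEl u K) φ x)
      (hyperfilter ℕ : Filter ℕ) (𝓝 0) := by
    have h3 : ∀ K : ℕ, |act ℝ (avgEl u K) φ (x + u) - act ℝ (avgEl u K) φ x| ≤ (2 * C) / K := by
      intro K
      rw [act_avgEl, act_avgEl, ← mul_sub]
      have h4 : ∑ k ∈ Finset.range K, φ (x + u + k • u) - ∑ k ∈ Finset.range K, φ (x + k • u) =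
          φ (x + K • u) - φ x := by
        have e : ∀ k : ℕ, x + u + k • u = x + (k + 1) • u := by
          intro k; rw [succ_nsmul]; abel
        simp only [e]
        rw [← Finset.sum_sub_distrib, Finset.sum_range_sub (fun k => φ (x + k • u))]
        simp
      have h6 : |φ (x + K • u) - φ x| ≤ 2 * C := by
        calc |φ (x + K • u) - φ x| ≤ |φ (x + K • u)| + |φ x| := abs_sub _ _
          _ ≤ C + C := add_le_add (hC _) (hC _)
          _ = 2 * C := by ring
      have h7 : (0 : ℝ) ≤ 1 / (K : ℝ) := one_div_nonneg.2 (Nat.cast_nonneg K)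
      rw [h4, abs_mul, abs_of_nonneg h7]
      calc 1 / (K : ℝ) * |φ (x + K • u) - φ x| ≤ 1 / (K : ℝ) * (2 * C) :=
            mul_le_mul_of_nonneg_left h6 h7
        _ = 2 * C / K := by ring
    rw [tendsto_zero_iff_abs_tendsto_zero]
    refine squeeze_zero (fun K => abs_nonneg _) h3 ?_
    exact (tendsto_const_div_atTop_nhds_zero_nat (2 * C)).mono_left Nat.hyperfilter_le_atTop
  have := tendsto_nhds_unique h1 h2
  linarith

theorem sq_annih {u : G} {φ : G → ℝ} (hb : Bdd φ)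
    (h : (mon ℝ u - 1) ^ 2 ∈ annih φ) : (mon ℝ u - 1) ∈ annih φ := by
  rw [mem_annih] at h ⊢
  set ψ := act ℝ (mon ℝ u - 1) φ with hψ
  have hψ' : ∀ x, ψ x = φ (x + u) - φ x := by
    intro x
    rw [hψ, act_sub_apply, act_one_apply, Pi.sub_apply, act_mon]
  have h1 : ∀ x, ψ (x + u) = ψ x := by
    intro x
    rw [sq, act_mul_apply, ← hψ, act_sub_apply, act_one_apply] at h
    have := congrFun h x
    rw [Pi.sub_apply, act_mon] at this
    simp only [Pi.zero_apply] at this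
    linarith
  have h2 : ∀ (x : G) (k : ℕ), φ (x + k • u) = φ x + k * ψ x := by
    intro x k
    induction k with
    | zero => simp
    | succ k ih =>
      have h3 : ∀ j : ℕ, ψ (x + j • u) = ψ x := by
        intro j
        induction j with
        | zero => simp
        | succ j ihj => rw [succ_nsmul, ← add_assoc, h1, ihj]
      have h4 := hψ' (x + k • u)
      rw [h3] at h4
      rw [succ_nsmul, ← add_assoc]
      push_cast
      linarith
  obtain ⟨C, hC⟩ := hb
  ext x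
  by_contra hne
  have hne' : ψ x ≠ 0 := hne
  have hpos : 0 < |ψ x| := abs_pos.2 hne'
  obtain ⟨k, hk⟩ := exists_nat_gt ((2 * C) / |ψ x|)
  have h5 : |(k : ℝ) * ψ x| ≤ 2 * C := by
    have : (k : ℝ) * ψ x = φ (x + k • u) - φ x := by rw [h2]; ring
    rw [this]
    calc |φ (x + k • u) - φ x| ≤ |φ (x + k • u)| + |φ x| := abs_sub _ _
      _ ≤ C + C := add_le_add (hC _) (hC _)
      _ = 2 * C := by ring
  rw [abs_mul, Nat.abs_cast] at h5
  rw [div_lt_iff₀ hpos] at hk
  linarith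

theorem pow_annih {u : G} {φ : G → ℝ} (hb : Bdd φ) (k : ℕ)
    (h : (mon ℝ u - 1) ^ k ∈ annih φ) : (mon ℝ u - 1) ∈ annih φ := by
  induction k with
  | zero =>
    rw [pow_zero] at h
    simpa using Ideal.mul_mem_left _ (mon ℝ u - 1) h
  | succ k ih =>
    rcases Nat.eq_zero_or_pos k with rfl | hk
    · simpa using h
    · obtain ⟨j, rfl⟩ : ∃ j, k = j + 1 := ⟨k - 1, by omega⟩
      apply ih
      have h1 : (mon ℝ u - 1) ^ 2 ∈ annih (act ℝ ((mon ℝ u - 1) ^ j) φ) := by
        rw [mem_annih, ← act_mul_apply, ← pow_add]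
        have : 2 + j = j + 1 + 1 := by omega
        rw [this]
        exact h
      have h2 := sq_annih (hb.actP _) h1
      rw [mem_annih, ← act_mul_apply] at h2
      rw [mem_annih, pow_succ']
      exact h2

theorem inv_of_annih {u : G} {φ : G → ℝ} (h : (mon ℝ u - 1) ∈ annih φ) (x : G) :
    φ (x + u) = φ x := by
  rw [mem_annih, act_sub_apply, act_one_apply] at h
  have := congrFun h x
  rw [Pi.sub_apply, act_mon] at this
  simp only [Pi.zero_apply] at this
  linarith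

theorem removal {u : G} {φ a : G → ℝ} (h : IsAvg u φ a) (hb : Bdd φ) (hb' : Bdd a)
    (P : AddMonoidAlgebra ℝ G) (k : ℕ) (hP : P * (mon ℝ u - 1) ^ k ∈ annih (φ - a)) :
    P ∈ annih (φ - a) := by
  have hinv : ∀ x, a (x + u) = a x := h.inv hb
  have h1 : (mon ℝ u - 1) ^ k ∈ annih (act ℝ P (φ - a)) := by
    rw [mem_annih, ← act_mul_apply, mul_comm]
    exact hP
  have h2 := inv_of_annih (pow_annih ((hb.sub hb').actP P) k h1)
  have h3 : IsAvg u (act ℝ P (φ - a)) (act ℝ P (a - a)) := (h.sub (isAvg_of_inv hinv)).actP P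
  have h4 : IsAvg u (act ℝ P (φ - a)) (act ℝ P (φ - a)) := isAvg_of_inv h2
  have h5 := h4.unique h3
  rw [mem_annih, h5]
  simp

end Vale.Agent.P043
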