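import Mathlib

open scoped BigOperators

namespace Vale.Agent.P043

variable {G : Type*} [AddCommGroup G]

/-- The family of translates `t i` (`i ∈ ι`) of `A` partitions the group (summation form). -/
def FamTiles {ι : Type*} [Fintype ι] (A : Set G) (t : ι → G) : Prop :=
  ∀ x, ∑ i, A.indicator (fun _ => (1 : ℤ)) (x - t i) = 1

section act

variable (k : Type*) [CommRing k]

/-- shift operators on functions -/
noncomputable def shiftHom : Multiplicative G →* Module.End k (G → k) where
  toFun g :=
    { toFun := fun φ x => φ (x + g.toAdd)
      map_add' := fun _ _ => rfl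
      map_smul' := fun _ _ => rfl }
  map_one' := by
    ext φ x
    simp
  map_mul' a b := by
    ext φ x
    simp only [toAdd_mul, LinearMap.coe_mk, AddHom.coe_mk, Module.End.mul_apply]
    congr 1
    abel

/-- the action of the group algebra on functions -/
noncomputable def act : AddMonoidAlgebra k G →ₐ[k] Module.End k (G → k) :=
  AddMonoidAlgebra.lift k (Module.End k (G → k)) G (shiftHom k)

/-- the monomial `X^g` -/
noncomputable def mon (g : G) : AddMonoidAlgebra k G := AddMonoidAlgebra.single g 1

theorem act_mon (g : G) (φ : G → k) (x : G) : act k (mon k g) φ x = φ (x + g) := by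
  simp [act, mon, shiftHom]

theorem mon_add (g h : G) : mon k (g + h) = mon k g * mon k h := by
  simp [mon, AddMonoidAlgebra.single_mul_single]

theorem mon_zero : mon k (0 : G) = 1 := rfl

theorem mon_nsmul (n : ℕ) (g : G) : mon k (n • g) = mon k g ^ n := by
  induction n with
  | zero => simp [mon_zero]
  | succ n ih => rw [succ_nsmul, mon_add, ih, pow_succ]

theorem act_mul_apply (P Q : AddMonoidAlgebra k G) (φ : G → k) :
    act k (P * Q) φ = act k P (act k Q φ) := by
  rw [map_mul]; rfl

theorem act_one_apply (φ : G → k) : act k 1 φ = φ := by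
  rw [map_one]; rfl

theorem act_sub_apply (P Q : AddMonoidAlgebra k G) (φ : G → k) :
    act k (P - Q) φ = act k P φ - act k Q φ := by
  rw [map_sub]; rfl

theorem act_add_apply (P Q : AddMonoidAlgebra k G) (φ : G → k) :
    act k (P + Q) φ = act k P φ + act k Q φ := by
  rw [map_add]; rfl

theorem act_sum_apply {ι : Type*} (s : Finset ι) (P : ι → AddMonoidAlgebra k G) (φ : G → k) :
    act k (∑ i ∈ s, P i) φ = ∑ i ∈ s, act k (P i) φ := by
  rw [map_sum]; simp

end act

end Vale.Agent.P043
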