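import Vale.Agent.P043.Basic

open scoped BigOperators

namespace Vale.Agent.P043

variable {G : Type*} [AddCommGroup G]

theorem act_const (k : Type*) [CommRing k] {ι : Type*} [Fintype ι] (t : ι → G) (c : k) :
    act k (∑ i, mon k (t i)) (fun _ => c) = fun _ => (Fintype.card ι : k) * c := by
  ext x
  rw [act_sum_apply]
  simp [act_mon]

theorem act_pow_const (k : Type*) [CommRing k] {ι : Type*} [Fintype ι] (t : ι → G) (c : k)
    (m : ℕ) :
    act k ((∑ i, mon k (t i)) ^ m) (fun _ => c) = fun _ => (Fintype.card ι : k) ^ m * c := by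
  induction m with
  | zero => simp [act_one_apply]
  | succ m ih =>
    rw [pow_succ', act_mul_apply, ih, act_const]
    ext x
    ring

theorem famTiles_prime {ι : Type*} [Fintype ι] [Nonempty ι] {A : Set G} {t : ι → G}
    (h : FamTiles A t) (p : ℕ) (hp : p.Prime) (hpn : ¬ p ∣ Fintype.card ι) :
    FamTiles A (fun i => p • t i) := by
  classical
  haveI : Fact p.Prime := ⟨hp⟩
  set I : G → ℤ := A.indicator (fun _ => (1 : ℤ)) with hI
  have hInn : ∀ x, 0 ≤ I x := fun x => Set.indicator_nonneg (fun _ _ => by norm_num) x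
  -- step 1: mod p
  set φ : G → ZMod p := fun x => ((I x : ℤ) : ZMod p) with hφ
  set P : AddMonoidAlgebra (ZMod p) G := ∑ i, mon (ZMod p) (-(t i)) with hP
  have h1 : act (ZMod p) P φ = fun _ => 1 := by
    ext x
    rw [hP, act_sum_apply]
    simp only [Finset.sum_apply, act_mon]
    have := h x
    have h2 : ((∑ i, I (x - t i) : ℤ) : ZMod p) = ((1 : ℤ) : ZMod p) := by rw [this]
    rw [Int.cast_sum] at h2
    simpa [hφ, sub_eq_add_neg] using h2
  have h2 : P ^ p = ∑ i, mon (ZMod p) (-(p • t i)) := by
    haveI : CharP (AddMonoidAlgebra (ZMod p) G) p := by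
      exact charP_of_injective_algebraMap
        (FaithfulSMul.algebraMap_injective (ZMod p) (AddMonoidAlgebra (ZMod p) G)) p
    rw [hP, sum_pow_char]
    refine Finset.sum_congr rfl fun i _ => ?_
    rw [← mon_nsmul, smul_neg]
  have h3 : act (ZMod p) (P ^ p) φ = fun _ => 1 := by
    have hp1 : P ^ p = P ^ (p - 1) * P := (pow_sub_one_mul hp.ne_zero P).symm
    rw [hp1, act_mul_apply, h1, hP, act_pow_const]
    ext x
    have hne : (Fintype.card ι : ZMod p) ≠ 0 := by
      rwa [Ne, ZMod.natCast_eq_zero_iff]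
    rw [ZMod.pow_card_sub_one_eq_one hne, one_mul]
  have h4 : ∀ x, ((∑ i, I (x - p • t i) : ℤ) : ZMod p) = 1 := by
    intro x
    have := congrFun h3 x
    rw [h2, act_sum_apply] at this
    simp only [Finset.sum_apply, act_mon] at this
    rw [Int.cast_sum]
    simpa [hφ, sub_eq_add_neg] using this
  have h5 : ∀ x, 0 ≤ (∑ i, I (x - p • t i)) - 1 := by
    intro x
    have h6 : 0 ≤ ∑ i, I (x - p • t i) := Finset.sum_nonneg fun i _ => hInn _
    have h7 : (∑ i, I (x - p • t i)) ≠ 0 := by
      intro h0
      have := h4 x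
      rw [h0] at this
      simp at this
    omega
  have h8 : ∀ x, ∑ j, ((∑ i, I ((x - t j) - p • t i)) - 1) = 0 := by
    intro x
    rw [Finset.sum_sub_distrib, Finset.sum_comm]
    have : ∀ i, ∑ j, I (x - t j - p • t i) = 1 := by
      intro i
      have := h (x - p • t i)
      rw [← this]
      refine Finset.sum_congr rfl fun j _ => ?_
      congr 1
      abel
    simp [this]
  intro x
  obtain ⟨j⟩ := (inferInstance : Nonempty ι)
  have h9 := h8 (x + t j)
  have h10 := (Finset.sum_eq_zero_iff_of_nonneg (fun i _ => h5 _)).1 h9 j (Finset.mem_univ _)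
  have h11 : x + t j - t j = x := by abel
  rw [h11] at h10
  linarith

/-- dilation lemma -/
theorem famTiles_nsmul {ι : Type*} [Fintype ι] [Nonempty ι] {A : Set G} {t : ι → G}
    (h : FamTiles A t) (r : ℕ) (hr : Nat.Coprime r (Fintype.card ι)) (hr0 : r ≠ 0) :
    FamTiles A (fun i => r • t i) := by
  classical
  induction r using Nat.recOnMul generalizing t with
  | zero => exact absurd rfl hr0
  | one => simpa using h
  | prime p hp =>
    refine famTiles_prime h p hp ?_
    intro hd
    have := Nat.Coprime.eq_one_of_dvd hr hd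
    exact hp.one_lt.ne' this
  | mul a b iha ihb =>
    have ha : a ≠ 0 := by rintro rfl; simp at hr0
    have hb : b ≠ 0 := by rintro rfl; simp at hr0
    have h1 := ihb h (Nat.Coprime.coprime_mul_left hr) hb
    have h2 := iha h1 (Nat.Coprime.coprime_mul_right hr) ha
    simpa [mul_smul] using h2

end Vale.Agent.P043
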