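import Vale.Agent.P043.Dilation

open scoped BigOperators

namespace Vale.Agent.P043

variable {G : Type*} [AddCommGroup G]

/-- real-valued indicator function -/
noncomputable def indR (A : Set G) : G → ℝ := A.indicator (fun _ => (1 : ℝ))

/-- annihilator ideal of a function -/
noncomputable def annih (φ : G → ℝ) : Ideal (AddMonoidAlgebra ℝ G) where
  carrier := {P | act ℝ P φ = 0}
  add_mem' := by
    intro a b ha hb
    simp only [Set.mem_setOf_eq] at *
    rw [act_add_apply, ha, hb, add_zero]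
  zero_mem' := by simp
  smul_mem' := by
    intro c x hx
    simp only [Set.mem_setOf_eq, smul_eq_mul] at *
    rw [act_mul_apply, hx, map_zero]

theorem mem_annih {φ : G → ℝ} {P : AddMonoidAlgebra ℝ G} : P ∈ annih φ ↔ act ℝ P φ = 0 :=
  Iff.rfl

theorem indR_sum {ι : Type*} [Fintype ι] {A : Set G} {t : ι → G} (h : FamTiles A t) (x : G) :
    ∑ i, indR A (x - t i) = 1 := by
  have := h x
  have h2 : ((∑ i, A.indicator (fun _ => (1 : ℤ)) (x - t i) : ℤ) : ℝ) = ((1 : ℤ) : ℝ) := by
    rw [this]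
  rw [Int.cast_sum] at h2
  rw [Int.cast_one] at h2
  rw [← h2]
  refine Finset.sum_congr rfl fun i _ => ?_
  unfold indR
  by_cases hx : x - t i ∈ A <;> simp [hx]

theorem act_mon_const (g : G) (c : ℝ) : act ℝ (mon ℝ g) (fun _ => c) = fun _ => c := by
  ext x; rw [act_mon]

variable {ι : Type*} [Fintype ι] [DecidableEq ι]

/-- auxiliary elements of the elimination -/
noncomputable def elimT (n : ℕ) (t : ι → G) (S : Finset ι) (k : ℕ) : AddMonoidAlgebra ℝ G :=
  ∑ i, mon ℝ (-(t i)) * mon ℝ (-(n • t i)) ^ k *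
    ∏ j ∈ S, (mon ℝ (-(n • t i)) - mon ℝ (-(n • t j)))

theorem elimT_insert (n : ℕ) (t : ι → G) (S : Finset ι) (j : ι) (hj : j ∉ S) (k : ℕ) :
    elimT n t (insert j S) k = elimT n t S (k + 1) - mon ℝ (-(n • t j)) * elimT n t S k := by
  unfold elimT
  rw [Finset.mul_sum, ← Finset.sum_sub_distrib]
  refine Finset.sum_congr rfl fun i _ => ?_
  rw [Finset.prod_insert hj]
  ring

theorem act_elimT {A : Set G} {t : ι → G} (h : FamTiles A t) [Nonempty ι]
    (S : Finset ι) (k : ℕ) :
    act ℝ (elimT (Fintype.card ι) t S k) (indR A) = fun _ => if S = ∅ then 1 else 0 := by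
  induction S using Finset.induction_on generalizing k with
  | empty =>
    ext x
    simp only [elimT, Finset.prod_empty, mul_one, if_true]
    rw [act_sum_apply]
    have hr : Nat.Coprime (1 + k * Fintype.card ι) (Fintype.card ι) := by
      simp
    have h1 := indR_sum (famTiles_nsmul h (1 + k * Fintype.card ι) hr (by omega)) x
    rw [← h1, Finset.sum_apply]
    refine Finset.sum_congr rfl fun i _ => ?_
    rw [← mon_nsmul, ← mon_add, act_mon]
    congr 1
    rw [add_smul, one_smul, mul_smul]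
    simp only [smul_neg]
    abel
  | insert j S hj ih =>
    rw [elimT_insert _ _ _ _ hj, act_sub_apply, act_mul_apply, ih, ih, act_mon_const]
    ext x
    simp

theorem prod_mem_annih {A : Set G} {t : ι → G} (h : FamTiles A t) (hcard : 1 < Fintype.card ι)
    (f : ι) :
    (∏ j ∈ Finset.univ.erase f, (mon ℝ ((Fintype.card ι) • (t f - t j)) - 1)) ∈
      annih (indR A) := by
  haveI : Nonempty ι := ⟨f⟩
  set n := Fintype.card ι with hn
  have h1 := act_elimT h (Finset.univ.erase f) 0
  have hne : (Finset.univ.erase f : Finset ι) ≠ ∅ := by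
    rw [← Finset.nonempty_iff_ne_empty, ← Finset.card_pos, Finset.card_erase_of_mem
      (Finset.mem_univ _), Finset.card_univ]
    omega
  rw [if_neg hne] at h1
  have h2 : elimT n t (Finset.univ.erase f) 0 =
      mon ℝ (-(t f)) * ∏ j ∈ Finset.univ.erase f, (mon ℝ (-(n • t f)) - mon ℝ (-(n • t j))) := by
    unfold elimT
    rw [Finset.sum_eq_single f]
    · simp
    · intro i _ hi
      rw [Finset.prod_eq_zero (i := i) (Finset.mem_erase.2 ⟨hi, Finset.mem_univ _⟩)]
      · simp
      · simp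
    · intro h; exact absurd (Finset.mem_univ _) h
  have h3 : (∏ j ∈ Finset.univ.erase f, (mon ℝ (n • (t f - t j)) - 1)) =
      (mon ℝ (t f) * ∏ _j ∈ Finset.univ.erase f, (-mon ℝ (n • t f))) *
        elimT n t (Finset.univ.erase f) 0 := by
    rw [h2]
    have e1 : ∀ (a b c d : AddMonoidAlgebra ℝ G), a * b * (c * d) = (a * c) * (b * d) := by
      intro a b c d; ring
    rw [e1, ← mon_add, add_neg_cancel, mon_zero, one_mul, ← Finset.prod_mul_distrib]
    refine Finset.prod_congr rfl fun j _ => ?_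
    rw [neg_mul, mul_sub, ← mon_add, ← mon_add, add_neg_cancel, mon_zero, ← sub_eq_add_neg,
      ← smul_sub]
    ring
  rw [h3]
  refine Ideal.mul_mem_left _ _ ?_
  rw [mem_annih, h1]
  rfl

/-- the fixed point free self-maps of `ι` -/
def fpf (ι : Type*) [Fintype ι] [DecidableEq ι] : Finset (ι → ι) :=
  Finset.univ.filter fun γ => ∀ f, γ f ≠ f

/-- the ideal attached to a map -/
noncomputable def mapIdeal (n : ℕ) (t : ι → G) (γ : ι → ι) : Ideal (AddMonoidAlgebra ℝ G) :=
  Ideal.span (Set.range fun f => mon ℝ (n • (t f - t (γ f))) - 1)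

theorem prod_mapIdeal_le {A : Set G} {t : ι → G} (h : FamTiles A t)
    (hcard : 1 < Fintype.card ι) :
    ∏ γ ∈ fpf ι, mapIdeal (Fintype.card ι) t γ ≤ annih (indR A) := by
  classical
  set n := Fintype.card ι with hn
  unfold mapIdeal
  rw [Ideal.prod_span, Ideal.span_le]
  intro a ha
  rw [Set.mem_finsetProd] at ha
  obtain ⟨g, hg, rfl⟩ := ha
  have hg' : ∀ γ : ι → ι, ∃ s : ι, γ ∈ fpf ι → mon ℝ (n • (t s - t (γ s))) - 1 = g γ := by
    intro γ
    by_cases hγ : γ ∈ fpf ι
    · obtain ⟨s, hs⟩ := hg hγ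
      exact ⟨s, fun _ => hs⟩
    · have : 0 < Fintype.card ι := by omega
      obtain ⟨x⟩ := Fintype.card_pos_iff.1 this
      exact ⟨x, fun h => absurd h hγ⟩
  choose s hs using hg'
  -- the combinatorial claim
  have claim : ∃ f : ι, ∀ j : ι, j ≠ f → ∃ γ ∈ fpf ι, s γ = f ∧ γ f = j := by
    by_contra hcon
    push Not at hcon
    choose γ0 hγ0 hγ1 using hcon
    have hmem : γ0 ∈ fpf ι := by
      unfold fpf
      simp only [Finset.mem_filter, Finset.mem_univ, true_and]
      exact hγ0
    exact hγ1 (s γ0) γ0 hmem rfl rfl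
  obtain ⟨f, hf⟩ := claim
  choose! Γ hΓ1 hΓ2 hΓ3 using hf
  have hdvd : (∏ j ∈ Finset.univ.erase f, (mon ℝ (n • (t f - t j)) - 1)) ∣
      ∏ γ ∈ fpf ι, g γ := by
    have hinj : Set.InjOn Γ (Finset.univ.erase f : Finset ι) := by
      intro i hi j hj hij
      have hi' : i ≠ f := by simpa using hi
      have hj' : j ≠ f := by simpa using hj
      rw [← hΓ3 i hi', ← hΓ3 j hj', hij]
    have e1 : (∏ j ∈ Finset.univ.erase f, (mon ℝ (n • (t f - t j)) - 1)) =
        ∏ γ ∈ (Finset.univ.erase f).image Γ, g γ := by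
      rw [Finset.prod_image hinj]
      refine Finset.prod_congr rfl fun j hj => ?_
      have hj' : j ≠ f := by simpa using hj
      rw [← hs _ (hΓ1 j hj'), hΓ2 j hj', hΓ3 j hj']
    rw [e1]
    refine Finset.prod_dvd_prod_of_subset _ _ _ ?_
    intro γ hγ
    rw [Finset.mem_image] at hγ
    obtain ⟨j, hj, rfl⟩ := hγ
    exact hΓ1 j (by simpa using hj)
  exact Ideal.mem_of_dvd _ hdvd (prod_mem_annih h hcard f)

end Vale.Agent.P043
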