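import Vale.Agent.P043.OneDim

open scoped BigOperators

namespace Vale.Agent.P043

variable {G : Type*} [AddCommGroup G]

/-- two different kernels generate a subgroup containing all multiples by some integer -/
theorem ker_sum {a b : G →+ ℤ} (h : a.ker ≠ b.ker) :
    ∃ β : ℕ, 0 < β ∧ ∀ y : G, ∃ w w' : G, a w = 0 ∧ b w' = 0 ∧ β • y = w + w' := by
  by_cases ha : a = 0
  · exact ⟨1, one_pos, fun y => ⟨y, 0, by rw [ha]; rfl, map_zero _, by simp⟩⟩
  by_cases hb : b = 0
  · exact ⟨1, one_pos, fun y => ⟨0, y, map_zero _, by rw [hb]; rfl, by simp⟩⟩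
  have hex : ∃ w, a w = 0 ∧ b w ≠ 0 := by
    by_contra hcon
    push Not at hcon
    apply h
    have h1 : ∀ x z, a z * b x = a x * b z := by
      intro x z
      have := hcon (a z • x - a x • z) (by
        rw [map_sub, map_zsmul, map_zsmul]; simp only [smul_eq_mul]; ring)
      rw [map_sub, map_zsmul, map_zsmul] at this
      simp only [smul_eq_mul] at this
      linarith
    obtain ⟨z, hz⟩ : ∃ z, a z ≠ 0 := by
      by_contra hc; push Not at hc; exact ha (AddMonoidHom.ext hc)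
    obtain ⟨z', hz'⟩ : ∃ z, b z ≠ 0 := by
      by_contra hc; push Not at hc; exact hb (AddMonoidHom.ext hc)
    ext x
    rw [AddMonoidHom.mem_ker, AddMonoidHom.mem_ker]
    constructor
    · exact fun hx => hcon x hx
    · intro hx
      have h2 := h1 x z'
      rw [hx, mul_zero] at h2
      rcases mul_eq_zero.1 h2.symm with h3 | h3
      · exact h3
      · exact absurd h3 hz'
  obtain ⟨w0, hw0, hb0⟩ := hex
  refine ⟨(b w0).natAbs, Int.natAbs_pos.2 hb0, fun y => ?_⟩
  obtain ⟨ε, hε⟩ : ∃ ε : ℤ, ((b w0).natAbs : ℤ) = ε * b w0 := by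
    rcases le_or_gt 0 (b w0) with h1 | h1
    · exact ⟨1, by rw [Int.natAbs_of_nonneg h1, one_mul]⟩
    · refine ⟨-1, ?_⟩
      rw [Int.ofNat_natAbs_of_nonpos h1.le]; ring
  refine ⟨(ε * b y) • w0, ε • (b w0 • y - b y • w0), ?_, ?_, ?_⟩
  · rw [map_zsmul, hw0, smul_zero]
  · rw [map_zsmul, map_sub, map_zsmul, map_zsmul]
    simp only [smul_eq_mul]; ring
  · rw [← natCast_zsmul, hε]
    simp only [smul_sub, mul_smul]
    abel

/-- real valued version of the covering function -/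
noncomputable def cov {ι : Type*} [Fintype ι] (t : ι → G) (A : Set G) (x : G) : ℤ :=
  ∑ i, ind A (x - t i)

theorem final_stage [AddGroup.FG G] {ι : Type*} [Fintype ι] [Nonempty ι] (t : ι → G) (A : Set G)
    (hA : FamTiles A t) (𝓗 : Finset (AddSubgroup G)) (h : G → AddSubgroup G)
    (hmem : ∀ x, h x ∈ 𝓗) (hker : ∀ H ∈ 𝓗, ∃ a : G →+ ℤ, H = a.ker) (M0 : ℕ) (hM0 : 0 < M0)
    (hper : ∀ x w, h (x + M0 • w) = h x) (hinv : ∀ x, ∀ w ∈ h x, (x ∈ A ↔ x + M0 • w ∈ A)) :
    ∃ (B : Set G) (M : ℕ), 0 < M ∧ FamTiles B t ∧ ∀ x y, (x ∈ B ↔ x + M • y ∈ B) := by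
  classical
  let AH : AddSubgroup G → Set G := fun H => {x | x ∈ A ∧ h x = H}
  have hAHinv : ∀ H x w, w ∈ H → (x ∈ AH H ↔ x + M0 • w ∈ AH H) := by
    intro H x w hw
    simp only [AH, Set.mem_setOf_eq, hper]
    constructor
    · rintro ⟨h1, h2⟩
      subst h2
      exact ⟨(hinv x w hw).1 h1, rfl⟩
    · rintro ⟨h1, h2⟩
      subst h2
      exact ⟨(hinv x w hw).2 h1, rfl⟩
  have hsumAH : ∀ x, ∑ H ∈ 𝓗, ind (AH H) x = ind A x := by
    intro x
    by_cases hx : x ∈ A
    · rw [Finset.sum_eq_single (h x)]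
      · exact ind_congr ⟨fun _ => hx, fun _ => ⟨hx, rfl⟩⟩
      · intro H _ hne
        exact Set.indicator_of_notMem (fun h2 => hne h2.2.symm) _
      · intro h2; exact absurd (hmem x) h2
    · rw [Finset.sum_eq_zero]
      · exact (Set.indicator_of_notMem hx _).symm
      · intro H _
        exact Set.indicator_of_notMem (fun h2 => hx h2.1) _
  have hsumcov : ∀ x, ∑ H ∈ 𝓗, cov t (AH H) x = 1 := by
    intro x
    unfold cov
    rw [Finset.sum_comm]
    simp only [hsumAH]
    exact hA x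
  let φ : AddSubgroup G → G → ℝ := fun H x => (cov t (AH H) x : ℝ)
  have hφsum : ∀ x, ∑ H ∈ 𝓗, φ H x = 1 := by
    intro x
    have := hsumcov x
    simp only [φ]
    rw [← Int.cast_sum, this, Int.cast_one]
  have hφnn : ∀ H x, 0 ≤ φ H x := by
    intro H x
    simp only [φ]
    exact_mod_cast Finset.sum_nonneg fun i _ => ind_nonneg _ _
  have hφbdd : ∀ H ∈ 𝓗, Bdd (φ H) := by
    intro H hH
    refine ⟨1, fun x => ?_⟩
    rw [abs_of_nonneg (hφnn H x), ← hφsum x]
    exact Finset.single_le_sum (f := fun H => φ H x) (fun H _ => hφnn H x) hH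
  have hcovinv : ∀ H x w, w ∈ H → cov t (AH H) (x + M0 • w) = cov t (AH H) x := by
    intro H x w hw
    unfold cov
    refine Finset.sum_congr rfl fun i _ => (ind_congr ?_)
    have e : x + M0 • w - t i = x - t i + M0 • w := by abel
    rw [e]
    exact (hAHinv H _ w hw).symm
  have hφann : ∀ H w, w ∈ H → mon ℝ (M0 • w) - 1 ∈ annih (φ H) := by
    intro H w hw
    rw [mem_annih]
    ext x
    rw [act_sub_apply, act_one_apply, Pi.sub_apply, act_mon]
    simp only [φ]
    rw [hcovinv H x w hw]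
    simp
  -- uniform constants for pairs
  have hpair : ∀ p : AddSubgroup G × AddSubgroup G, ∃ β : ℕ, 0 < β ∧
      (p.1 ∈ 𝓗 → p.2 ∈ 𝓗 → p.1 ≠ p.2 →
        ∀ y : G, ∃ w w' : G, w ∈ p.1 ∧ w' ∈ p.2 ∧ β • y = w + w') := by
    intro p
    by_cases hp : p.1 ∈ 𝓗 ∧ p.2 ∈ 𝓗 ∧ p.1 ≠ p.2
    · obtain ⟨a, ha⟩ := hker _ hp.1
      obtain ⟨b, hb⟩ := hker _ hp.2.1
      have hne : a.ker ≠ b.ker := by rw [← ha, ← hb]; exact hp.2.2
      obtain ⟨β, hβ, hβ'⟩ := ker_sum hne
      refine ⟨β, hβ, fun _ _ _ y => ?_⟩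
      obtain ⟨w, w', h1, h2, h3⟩ := hβ' y
      exact ⟨w, w', by rw [ha]; exact h1, by rw [hb]; exact h2, h3⟩
    · exact ⟨1, one_pos, fun h1 h2 h3 => absurd ⟨h1, h2, h3⟩ hp⟩
  choose β hβ hβ' using hpair
  set Bβ : ℕ := ∏ p ∈ 𝓗 ×ˢ 𝓗, β p with hBβ
  have hQpos : 0 < Bβ := Finset.prod_pos fun p _ => hβ p
  set M1 : ℕ := M0 * Bβ with hM1
  have hM1pos : 0 < M1 := Nat.mul_pos hM0 hQpos
  have hφper : ∀ H ∈ 𝓗, ∀ y, mon ℝ (M1 • y) - 1 ∈ annih (φ H) := by
    intro H hH y
    -- decompositions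
    have hdec : ∀ H', H' ∈ 𝓗.erase H → ∃ w w', w ∈ H ∧ w' ∈ H' ∧
        M1 • y = M0 • w + M0 • w' := by
      intro H' hH'
      rw [Finset.mem_erase] at hH'
      obtain ⟨c, hc⟩ := Finset.dvd_prod_of_mem β (Finset.mem_product.2
        (show (H, H').1 ∈ 𝓗 ∧ (H, H').2 ∈ 𝓗 from ⟨hH, hH'.2⟩))
      obtain ⟨w, w', h1, h2, h3⟩ := hβ' (H, H') hH hH'.2 hH'.1.symm (c • y)
      refine ⟨w, w', h1, h2, ?_⟩
      rw [← smul_add, ← h3, hM1, hBβ, hc, mul_smul, mul_smul]
    choose! w w' hw hw' hww using hdec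
    by_cases hempty : 𝓗.erase H = ∅
    · have h1 : φ H = fun _ => 1 := by
        ext x
        have := hφsum x
        rw [← Finset.add_sum_erase _ _ hH, hempty, Finset.sum_empty, add_zero] at this
        exact this
      rw [mem_annih, h1, act_sub_apply, act_one_apply, act_mon_const, sub_self]
    · obtain ⟨H1, hH1⟩ := Finset.nonempty_iff_ne_empty.2 hempty
      -- the product of differences kills φ H
      have hR : ∏ H' ∈ 𝓗.erase H, (mon ℝ (M0 • w' H') - 1) ∈ annih (φ H) := by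
        rw [mem_annih]
        have h1 : φ H = (fun _ => 1) - ∑ H' ∈ 𝓗.erase H, φ H' := by
          ext x
          have := hφsum x
          rw [← Finset.add_sum_erase _ _ hH] at this
          simp only [Pi.sub_apply, Finset.sum_apply]
          linarith
        rw [h1, map_sub, map_sum]
        have h2 : ∀ H' ∈ 𝓗.erase H, act ℝ (∏ H' ∈ 𝓗.erase H, (mon ℝ (M0 • w' H') - 1)) (φ H') =
            0 := by
          intro H' hH'
          have h3 : ∏ H' ∈ 𝓗.erase H, (mon ℝ (M0 • w' H') - 1) ∈ annih (φ H') := by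
            rw [← Finset.mul_prod_erase _ _ hH', mul_comm]
            exact Ideal.mul_mem_left _ _ (hφann H' _ (hw' H' hH'))
          exact h3
        rw [Finset.sum_eq_zero h2, sub_zero]
        rw [← Finset.mul_prod_erase _ _ hH1, mul_comm, act_mul_apply]
        have h4 : act ℝ (mon ℝ (M0 • w' H1) - 1) (fun _ => (1 : ℝ)) = 0 := by
          rw [act_sub_apply, act_one_apply, act_mon_const, sub_self]
        rw [h4, map_zero]
      have hpow : (mon ℝ (M1 • y) - 1) ^ (𝓗.erase H).card ∈ annih (φ H) := by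
        rw [← Finset.prod_const]
        rw [← Ideal.Quotient.eq_zero_iff_mem] at hR ⊢
        rw [map_prod] at hR ⊢
        rw [← hR]
        refine Finset.prod_congr rfl fun H' hH' => ?_
        rw [← sub_eq_zero, ← map_sub, Ideal.Quotient.eq_zero_iff_mem, hww H' hH']
        have h5 : mon ℝ (M0 • w H' + M0 • w' H') - 1 - (mon ℝ (M0 • w' H') - 1) =
            mon ℝ (M0 • w' H') * (mon ℝ (M0 • w H') - 1) := by
          rw [mon_add]; ring
        rw [h5]
        exact Ideal.mul_mem_left _ _ (hφann H _ (hw H' hH'))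
      exact pow_annih (hφbdd H hH) _ hpow
  have hcovper : ∀ H ∈ 𝓗, ∀ x y, cov t (AH H) (x + M1 • y) = cov t (AH H) x := by
    intro H hH x y
    have := inv_of_annih (hφper H hH y) x
    simp only [φ] at this
    exact_mod_cast this
  -- one dimensional replacement
  have hone : ∀ H, ∃ (B : Set G) (M : ℕ), 0 < M ∧ (∀ x y, (x ∈ B ↔ x + M • y ∈ B)) ∧
      (H ∈ 𝓗 → ∀ x, cov t B x = cov t (AH H) x) := by
    intro H
    by_cases hH : H ∈ 𝓗
    · obtain ⟨a, ha⟩ := hker H hH
      obtain ⟨B, M, hM, h1, h2⟩ := one_dim t a (AH H) M0 M1 hM0 hM1pos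
        (fun x w hw => hAHinv H x w (by rw [ha]; exact hw)) (fun x y => hcovper H hH x y)
      exact ⟨B, M, hM, h1, fun _ => h2⟩
    · exact ⟨∅, 1, one_pos, by simp, fun h1 => absurd h1 hH⟩
  choose B M hM hBper hBcov using hone
  have hBsum : ∀ x, ∑ H ∈ 𝓗, cov t (B H) x = 1 := by
    intro x
    rw [← hsumcov x]
    exact Finset.sum_congr rfl fun H hH => hBcov H hH x
  -- disjointness
  have hBle : ∀ x, ∑ H ∈ 𝓗, ind (B H) x ≤ 1 := by
    intro x
    obtain ⟨i0⟩ := (inferInstance : Nonempty ι)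
    rw [← hBsum (x + t i0)]
    refine Finset.sum_le_sum fun H _ => ?_
    have h1 : ind (B H) x = ind (B H) (x + t i0 - t i0) := by rw [add_sub_cancel_right]
    rw [h1]
    exact Finset.single_le_sum (f := fun i => ind (B H) (x + t i0 - t i))
      (fun i _ => ind_nonneg _ _) (Finset.mem_univ i0)
  set BB : Set G := {x | ∃ H ∈ 𝓗, x ∈ B H} with hBB
  have hindBB : ∀ x, ind BB x = ∑ H ∈ 𝓗, ind (B H) x := by
    intro x
    by_cases hx : x ∈ BB
    · have hxBB := hx
      obtain ⟨H, hH, hxH⟩ := hx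
      have h1 : ind (B H) x = 1 := Set.indicator_of_mem hxH _
      have h2 : ind (B H) x ≤ ∑ H ∈ 𝓗, ind (B H) x :=
        Finset.single_le_sum (f := fun H => ind (B H) x) (fun i _ => ind_nonneg _ _) hH
      have h3 := hBle x
      have h4 : ind BB x = 1 := Set.indicator_of_mem hxBB _
      omega
    · rw [Finset.sum_eq_zero]
      · exact Set.indicator_of_notMem hx _
      · intro H hH
        exact Set.indicator_of_notMem (fun h2 => hx ⟨H, hH, h2⟩) _
  refine ⟨BB, ∏ H ∈ 𝓗, M H, Finset.prod_pos fun H _ => hM H, ?_, ?_⟩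
  · intro x
    refine Eq.trans ?_ (hBsum x)
    unfold cov
    rw [Finset.sum_comm]
    exact Finset.sum_congr rfl fun i _ => hindBB _
  · intro x y
    have h1 : ∀ H ∈ 𝓗, (x ∈ B H ↔ x + (∏ H ∈ 𝓗, M H) • y ∈ B H) := by
      intro H hH
      obtain ⟨c, hc⟩ := Finset.dvd_prod_of_mem M hH
      rw [hc, mul_smul]
      exact hBper H x (c • y)
    constructor
    · rintro ⟨H, hH, hx⟩
      exact ⟨H, hH, (h1 H hH).1 hx⟩
    · rintro ⟨H, hH, hx⟩
      exact ⟨H, hH, (h1 H hH).2 hx⟩

/-- The general theorem for finitely generated abelian groups. -/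
theorem general [AddGroup.FG G] {ι : Type*} [Fintype ι] [DecidableEq ι] {t : ι → G}
    (hyp : SpanHyp t) (hcard : 1 < Fintype.card ι) {A0 : Set G} (hA0 : FamTiles A0 t) :
    ∃ (B : Set G) (M : ℕ), 0 < M ∧ FamTiles B t ∧ ∀ x y, (x ∈ B ↔ x + M • y ∈ B) := by
  classical
  obtain ⟨A, N, hN, hA, hinv⟩ := exists_inv hyp hcard hA0
  haveI : Nontrivial ι := Fintype.one_lt_card_iff_nontrivial.1 hcard
  -- on each coset there is a map γ
  have hγ : ∀ x0 : G, ∃ γ : ι → ι, (∀ f, γ f ≠ f) ∧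
      ∀ f z, (x0 + N • z ∈ A ↔ x0 + N • z + N • (t f - t (γ f)) ∈ A) := by
    intro x0
    by_cases hall : ∀ z, x0 + N • z ∈ A
    · have hex : ∀ f : ι, ∃ g, g ≠ f := exists_ne
      choose γ hγ using hex
      refine ⟨γ, hγ, fun f z => ?_⟩
      have e : x0 + N • z + N • (t f - t (γ f)) = x0 + N • (z + (t f - t (γ f))) := by
        rw [smul_add]; abel
      rw [e]
      exact ⟨fun _ => hall _, fun _ => hall _⟩
    · push Not at hall
      obtain ⟨z1, hz1⟩ := hall
      have hex : ∀ f, ∃ g, g ≠ f ∧ x0 + N • z1 + t f - t g ∈ A := by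
        intro f
        have h1 := hA (x0 + N • z1 + t f)
        obtain ⟨g, _, hg⟩ : ∃ g ∈ Finset.univ,
            A.indicator (fun _ => (1 : ℤ)) (x0 + N • z1 + t f - t g) ≠ 0 := by
          apply Finset.exists_ne_zero_of_sum_ne_zero
          rw [h1]; exact one_ne_zero
        have hg' : x0 + N • z1 + t f - t g ∈ A := by
          by_contra hc
          exact hg (Set.indicator_of_notMem hc _)
        refine ⟨g, ?_, hg'⟩
        rintro rfl
        rw [add_sub_cancel_right] at hg'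
        exact hz1 hg'
      choose γ hγ1 hγ2 using hex
      refine ⟨γ, hγ1, fun f z => ?_⟩
      apply hinv f (γ f) (hγ1 f).symm (x0 + N • z) (z1 - z)
      have e : x0 + N • z + N • (z1 - z) + (t f - t (γ f)) =
          x0 + N • z1 + t f - t (γ f) := by
        rw [smul_sub]; abel
      rw [e]
      exact hγ2 f
  have hcos : ∀ x0 : G, ∃ (a : G →+ ℤ) (m : ℕ), 0 < m ∧
      ∀ w, a w = 0 → ∀ z, (x0 + N • z ∈ A ↔ x0 + N • z + N • (m • w) ∈ A) := by
    intro x0
    obtain ⟨γ, hγ1, hγ2⟩ := hγ x0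
    obtain ⟨a, m, hm, ham⟩ := hyp γ hγ1
    refine ⟨a, m, hm, fun w hw => ?_⟩
    have hcl := ham w hw
    generalize m • w = y at hcl
    induction hcl using AddSubgroup.closure_induction with
    | mem x hx =>
      obtain ⟨f, rfl⟩ := hx
      exact fun z => hγ2 f z
    | zero => intro z; simp
    | add x y _ _ hx hy =>
      intro z
      rw [hx z]
      have e1 : x0 + N • z + N • x = x0 + N • (z + x) := by rw [smul_add]; abel
      have e2 : x0 + N • z + N • (x + y) = x0 + N • (z + x) + N • y := by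
        rw [smul_add, smul_add]; abel
      rw [e1, e2]
      exact hy _
    | neg x _ hx =>
      intro z
      have h1 := hx (z - x)
      have e1 : x0 + N • (z - x) = x0 + N • z + N • (-x) := by
        rw [smul_sub, smul_neg]; abel
      have e2 : x0 + N • (z - x) + N • x = x0 + N • z := by
        rw [smul_sub]; abel
      rw [e2, e1] at h1
      exact h1.symm
  choose a m hm ham using hcos
  haveI := finite_quot (G := G) N hN
  haveI : Fintype (G ⧸ mulSub G N) := Fintype.ofFinite _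
  let rep : G ⧸ mulSub G N → G := fun q => Quotient.out q
  have hrep : ∀ q, (QuotientAddGroup.mk (rep q) : G ⧸ mulSub G N) = q :=
    fun q => Quotient.out_eq' q
  let h : G → AddSubgroup G := fun x => (a (rep (QuotientAddGroup.mk x))).ker
  let 𝓗 : Finset (AddSubgroup G) := Finset.univ.image (fun q : G ⧸ mulSub G N => (a (rep q)).ker)
  set Qm : ℕ := ∏ q : G ⧸ mulSub G N, m (rep q) with hQm
  have hQpos : 0 < Qm := Finset.prod_pos fun q _ => hm _
  refine final_stage t A hA 𝓗 h ?_ ?_ (N * Qm) (Nat.mul_pos hN hQpos) ?_ ?_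
  · intro x
    exact Finset.mem_image.2 ⟨QuotientAddGroup.mk x, Finset.mem_univ _, rfl⟩
  · intro H hH
    obtain ⟨q, _, rfl⟩ := Finset.mem_image.1 hH
    exact ⟨_, rfl⟩
  · intro x w
    simp only [h]
    have : (QuotientAddGroup.mk (x + (N * Qm) • w) : G ⧸ mulSub G N) = QuotientAddGroup.mk x := by
      symm
      rw [mk_eq_iff]
      exact ⟨Qm • w, by rw [← mul_smul]⟩
    rw [this]
  · intro x w hw
    have hw' : a (rep (QuotientAddGroup.mk x)) w = 0 := hw
    obtain ⟨z, hz⟩ := mk_eq_iff.1 (hrep (QuotientAddGroup.mk x))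
    obtain ⟨c, hc⟩ := Finset.dvd_prod_of_mem (fun q : G ⧸ mulSub G N => m (rep q))
      (Finset.mem_univ (QuotientAddGroup.mk x))
    have hc' : Qm = m (rep (QuotientAddGroup.mk x)) * c := hc
    have h1 := ham (rep (QuotientAddGroup.mk x)) (c • w) (by rw [map_nsmul, hw', smul_zero]) z
    rw [← hz] at h1
    have e : (N * Qm) • w = N • (m (rep (QuotientAddGroup.mk x)) • (c • w)) := by
      rw [hc', mul_smul, mul_smul]
    rw [e]
    exact h1

end Vale.Agent.P043
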