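import Vale.Agent.P043.Final

open scoped BigOperators

namespace Vale.Agent.P043

/-- the inclusion of `ℤ^d` in `ℚ^d` -/
def toQ {d : ℕ} (x : Fin d → ℤ) : Fin d → ℚ := fun i => (x i : ℚ)

theorem toQ_add {d : ℕ} (x y : Fin d → ℤ) : toQ (x + y) = toQ x + toQ y := by
  ext i; simp [toQ]

theorem toQ_neg {d : ℕ} (x : Fin d → ℤ) : toQ (-x) = -toQ x := by
  ext i; simp [toQ]

theorem toQ_zsmul {d : ℕ} (n : ℤ) (x : Fin d → ℤ) : toQ (n • x) = (n : ℚ) • toQ x := by
  ext i; simp [toQ]

theorem toQ_nsmul {d : ℕ} (n : ℕ) (x : Fin d → ℤ) : toQ (n • x) = (n : ℚ) • toQ x := by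
  ext i; simp [toQ]

theorem toQ_injective {d : ℕ} : Function.Injective (toQ : (Fin d → ℤ) → (Fin d → ℚ)) := by
  intro x y h
  ext i
  have := congrFun h i
  simpa [toQ] using this

/-- clearing denominators -/
theorem exists_mul_mem {d : ℕ} (S : Set (Fin d → ℤ)) (x : Fin d → ℤ)
    (hx : toQ x ∈ Submodule.span ℚ (toQ '' S)) :
    ∃ m : ℕ, 0 < m ∧ m • x ∈ AddSubgroup.closure S := by
  have key : ∀ y ∈ Submodule.span ℚ (toQ '' S), ∃ m : ℕ, 0 < m ∧
      ∃ z ∈ AddSubgroup.closure S, (m : ℚ) • y = toQ z := by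
    intro y hy
    induction hy using Submodule.span_induction with
    | mem y hy =>
      obtain ⟨s, hs, rfl⟩ := hy
      exact ⟨1, one_pos, s, AddSubgroup.subset_closure hs, by simp⟩
    | zero => exact ⟨1, one_pos, 0, zero_mem _, by ext i; simp [toQ]⟩
    | add y y' _ _ h h' =>
      obtain ⟨m, hm, z, hz, e⟩ := h
      obtain ⟨m', hm', z', hz', e'⟩ := h'
      refine ⟨m * m', Nat.mul_pos hm hm', m' • z + m • z', ?_, ?_⟩
      · exact add_mem (AddSubgroup.nsmul_mem _ hz _) (AddSubgroup.nsmul_mem _ hz' _)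
      · rw [toQ_add, toQ_nsmul, toQ_nsmul, ← e, ← e', smul_add]
        push_cast
        module
    | smul c y _ h =>
      obtain ⟨m, hm, z, hz, e⟩ := h
      refine ⟨m * c.den, Nat.mul_pos hm c.den_pos, c.num • z, AddSubgroup.zsmul_mem _ hz _, ?_⟩
      rw [toQ_zsmul, ← e]
      push_cast
      rw [← mul_smul, ← mul_smul]
      congr 1
      have : (c.den : ℚ) * c = c.num := by
        rw [mul_comm]; exact Rat.mul_den_eq_num c
      linear_combination (m : ℚ) * this
  obtain ⟨m, hm, z, hz, e⟩ := key _ hx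
  refine ⟨m, hm, ?_⟩
  rw [← toQ_nsmul] at e
  rw [toQ_injective e]
  exact hz

/-- uniform version on a subgroup -/
theorem exists_mul_mem_uniform {d : ℕ} (S : Set (Fin d → ℤ)) (K : AddSubgroup (Fin d → ℤ))
    (hK : ∀ x ∈ K, toQ x ∈ Submodule.span ℚ (toQ '' S)) :
    ∃ m : ℕ, 0 < m ∧ ∀ x ∈ K, m • x ∈ AddSubgroup.closure S := by
  classical
  obtain ⟨T, hT⟩ := (isNoetherian_def.1 (inferInstance : IsNoetherian ℤ (Fin d → ℤ)))
    (AddSubgroup.toIntSubmodule K)
  have h1 : ∀ x : Fin d → ℤ, ∃ m : ℕ, 0 < m ∧ (x ∈ T → m • x ∈ AddSubgroup.closure S) := by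
    intro x
    by_cases hx : x ∈ T
    · have hxK : x ∈ K := by
        have : x ∈ AddSubgroup.toIntSubmodule K := by
          rw [← hT]; exact Submodule.subset_span hx
        exact this
      obtain ⟨m, hm, hm'⟩ := exists_mul_mem S x (hK x hxK)
      exact ⟨m, hm, fun _ => hm'⟩
    · exact ⟨1, one_pos, fun h => absurd h hx⟩
  choose m hm hm' using h1
  refine ⟨∏ x ∈ T, m x, Finset.prod_pos fun x _ => hm x, fun x hx => ?_⟩
  have hx' : x ∈ Submodule.span ℤ (T : Set (Fin d → ℤ)) := by rw [hT]; exact hx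
  induction hx' using Submodule.span_induction with
  | mem y hy =>
    obtain ⟨c, hc⟩ := Finset.dvd_prod_of_mem m hy
    rw [hc, mul_comm, mul_smul]
    exact AddSubgroup.nsmul_mem _ (hm' y hy) _
  | zero => simp
  | add y z hy hz h h' =>
    rw [smul_add]
    refine add_mem (h ?_) (h' ?_)
    · have : y ∈ AddSubgroup.toIntSubmodule K := by rw [← hT]; exact hy
      exact this
    · have : z ∈ AddSubgroup.toIntSubmodule K := by rw [← hT]; exact hz
      exact this
  | smul c y hy h =>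
    rw [smul_comm]
    refine AddSubgroup.zsmul_mem _ (h ?_) _
    have : y ∈ AddSubgroup.toIntSubmodule K := by rw [← hT]; exact hy
    exact this

/-- a subspace of codimension at most one contains the integer points of the kernel of an
integral functional -/
theorem exists_functional {d : ℕ} (W : Submodule ℚ (Fin d → ℚ)) (hW : d < Module.finrank ℚ W + 2) :
    ∃ a : (Fin d → ℤ) →+ ℤ, ∀ x, a x = 0 → toQ x ∈ W := by
  classical
  by_cases htop : W = ⊤
  · exact ⟨0, fun x _ => by rw [htop]; trivial⟩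
  obtain ⟨φ, hφ, hle⟩ := Submodule.exists_le_ker_of_lt_top W (lt_top_iff_ne_top.2 htop)
  have hfr : Module.finrank ℚ (LinearMap.ker φ) + 1 = d := by
    have h1 := Module.Dual.finrank_ker_add_one_of_ne_zero hφ
    rw [Module.finrank_fin_fun] at h1
    exact h1
  have hWeq : W = LinearMap.ker φ := by
    apply Submodule.eq_of_le_of_finrank_le hle
    omega
  -- clear denominators
  set D : ℕ := ∏ i, (φ (Pi.single i 1)).den with hD
  have hDpos : 0 < D := Finset.prod_pos fun i _ => Rat.den_pos _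
  have hint : ∀ i, ∃ A : ℤ, (A : ℚ) = (D : ℚ) * φ (Pi.single i 1) := by
    intro i
    obtain ⟨c, hc⟩ := Finset.dvd_prod_of_mem (fun i => (φ (Pi.single i 1)).den)
      (Finset.mem_univ i)
    refine ⟨c * (φ (Pi.single i 1)).num, ?_⟩
    have h1 : D = (φ (Pi.single i 1)).den * c := hc
    rw [h1]
    push_cast
    have h2 : (φ (Pi.single i 1)) * ((φ (Pi.single i 1)).den : ℚ) = (φ (Pi.single i 1)).num :=
      Rat.mul_den_eq_num _
    linear_combination (-(c : ℚ)) * h2
  choose A hA using hint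
  let a : (Fin d → ℤ) →+ ℤ :=
    { toFun := fun x => ∑ i, A i * x i
      map_zero' := by simp
      map_add' := by
        intro x y
        simp [mul_add, Finset.sum_add_distrib] }
  refine ⟨a, fun x hx => ?_⟩
  rw [hWeq, LinearMap.mem_ker]
  have h3 : toQ x = ∑ i, (x i : ℚ) • (Pi.single i (1 : ℚ) : Fin d → ℚ) := by
    ext j
    simp [toQ, Finset.sum_apply, Pi.single_apply]
  have h4 : (D : ℚ) * φ (toQ x) = 0 := by
    rw [h3, map_sum, Finset.mul_sum]
    have h5 : ((a x : ℤ) : ℚ) = 0 := by rw [hx]; simp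
    have h6 : ((a x : ℤ) : ℚ) = ∑ i, (A i : ℚ) * (x i : ℚ) := by
      show ((∑ i, A i * x i : ℤ) : ℚ) = _
      push_cast
      rfl
    rw [h6] at h5
    rw [← h5]
    refine Finset.sum_congr rfl fun i _ => ?_
    rw [map_smul, hA, smul_eq_mul]
    ring
  rcases mul_eq_zero.1 h4 with h7 | h7
  · exfalso
    have : (D : ℚ) ≠ 0 := by exact_mod_cast hDpos.ne'
    exact this h7
  · exact h7

theorem spanHyp_of_codim {d : ℕ} {ι : Type*} (t : ι → Fin d → ℤ)
    (h : ∀ γ : ι → ι, (∀ f, γ f ≠ f) →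
      d < Module.finrank ℚ (Submodule.span ℚ (Set.range fun f => toQ (t f - t (γ f)))) + 2) :
    SpanHyp t := by
  intro γ hγ
  obtain ⟨a, ha⟩ := exists_functional _ (h γ hγ)
  have hrange : (Set.range fun f => toQ (t f - t (γ f))) =
      toQ '' (Set.range fun f => t f - t (γ f)) := by
    rw [← Set.range_comp]; rfl
  obtain ⟨m, hm, hm'⟩ := exists_mul_mem_uniform (Set.range fun f => t f - t (γ f)) a.ker (by
    intro x hx
    rw [← hrange]
    exact ha x hx)
  exact ⟨a, m, hm, fun x hx => hm' x hx⟩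

end Vale.Agent.P043
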