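import Vale.Agent.P043.Basic

open scoped BigOperators
open Filter

namespace Vale.Agent.P043

variable {G : Type*} [AddCommGroup G]

/-- an ultrafilter on finite subsets containing all cones -/
noncomputable def cones (G : Type*) : Ultrafilter (Finset G) :=
  Ultrafilter.of (atTop : Filter (Finset G))

theorem cones_le : ((cones G : Ultrafilter (Finset G)) : Filter (Finset G)) ≤ atTop :=
  Ultrafilter.of_le _

theorem eventually_mem_cones (x : G) : ∀ᶠ X in (cones G : Filter (Finset G)), x ∈ X := by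
  classical
  have : ∀ᶠ X in (atTop : Filter (Finset G)), {x} ⊆ X := eventually_ge_atTop {x}
  filter_upwards [this.filter_mono cones_le] with X hX
  exact hX (Finset.mem_singleton_self x)

/-- limit of translates of a set -/
def limSet (A : Set G) (τ : Finset G → G) : Set G :=
  {x | ∀ᶠ X in (cones G : Filter (Finset G)), x + τ X ∈ A}

theorem limSet_spec (A : Set G) (τ : Finset G → G) (y : G) :
    ∀ᶠ X in (cones G : Filter (Finset G)), (y ∈ limSet A τ ↔ y + τ X ∈ A) := by
  by_cases h : y ∈ limSet A τ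
  · have h' : ∀ᶠ X in (cones G : Filter (Finset G)), y + τ X ∈ A := h
    filter_upwards [h'] with X hX
    exact ⟨fun _ => hX, fun _ => h⟩
  · have h' : ∀ᶠ X in (cones G : Filter (Finset G)), ¬ (y + τ X ∈ A) :=
      Ultrafilter.eventually_not.2 h
    filter_upwards [h'] with X hX
    exact ⟨fun h2 => absurd h2 h, fun h2 => absurd h2 hX⟩

theorem limSet_finite {κ : Type*} [Finite κ] (A : Set G) (τ : Finset G → G) (y : κ → G) :
    ∀ᶠ X in (cones G : Filter (Finset G)), ∀ i, (y i ∈ limSet A τ ↔ y i + τ X ∈ A) := by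
  rw [eventually_all]
  intro i
  exact limSet_spec A τ (y i)

theorem limSet_tiles {ι : Type*} [Fintype ι] {A : Set G} {t : ι → G} (h : FamTiles A t)
    (τ : Finset G → G) : FamTiles (limSet A τ) t := by
  classical
  intro x
  obtain ⟨X, hX⟩ := (limSet_finite A τ (fun i => x - t i)).exists
  refine Eq.trans ?_ (h (x + τ X))
  refine Finset.sum_congr rfl fun i _ => ?_
  have e : x + τ X - t i = x - t i + τ X := by abel
  rw [e]
  by_cases h1 : x - t i ∈ limSet A τ
  · rw [Set.indicator_of_mem h1, Set.indicator_of_mem ((hX i).1 h1)]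
  · rw [Set.indicator_of_notMem h1, Set.indicator_of_notMem (fun h2 => h1 ((hX i).2 h2))]

/-- on every coset `c` of `N G` which meets `A - v`, the set `A ∩ c` is `N v`-invariant -/
def PropInv (A : Set G) (N : ℕ) (v : G) : Prop :=
  ∀ x z, x + N • z + v ∈ A → (x ∈ A ↔ x + N • v ∈ A)

theorem PropInv.limSet {A : Set G} {N : ℕ} {v : G} (h : PropInv A N v) (τ : Finset G → G) :
    PropInv (limSet A τ) N v := by
  intro x z hx
  have h1 : ∀ᶠ X in (cones G : Filter (Finset G)), x + N • z + v + τ X ∈ A := hx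
  obtain ⟨X, hX1, hX2, hX3⟩ := (h1.and ((limSet_spec A τ x).and
    (limSet_spec A τ (x + N • v)))).exists
  rw [hX2, hX3]
  have e1 : x + N • z + v + τ X = (x + τ X) + N • z + v := by abel
  have e2 : x + N • v + τ X = x + τ X + N • v := by abel
  rw [e1] at hX1
  rw [e2]
  exact h _ _ hX1

theorem PropInv.mul {A : Set G} {N : ℕ} {v : G} (h : PropInv A N v) (k : ℕ) :
    PropInv A (N * k) v := by
  intro x z hx
  have key : ∀ j : ℕ, (x ∈ A ↔ x + (N * j) • v ∈ A) := by
    intro j
    induction j with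
    | zero => simp
    | succ j ih =>
      rw [ih]
      have h1 := h (x + (N * j) • v) (k • z - j • v) (by
        have e : x + (N * j) • v + N • (k • z - j • v) + v = x + (N * k) • z + v := by
          rw [smul_sub, mul_smul, mul_smul]; abel
        rw [e]; exact hx)
      rw [h1]
      have e2 : x + (N * j) • v + N • v = x + (N * (j + 1)) • v := by
        rw [mul_add, mul_one, add_smul]; abel
      rw [e2]
  exact key k

/-- the subgroup `N G` -/
def mulSub (G : Type*) [AddCommGroup G] (N : ℕ) : AddSubgroup G := (nsmulAddMonoidHom N).range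

theorem mem_mulSub {N : ℕ} {x : G} : x ∈ mulSub G N ↔ ∃ z, N • z = x := by
  unfold mulSub
  rw [AddMonoidHom.mem_range]
  simp

theorem finite_quot [AddGroup.FG G] (N : ℕ) (hN : 0 < N) : Finite (G ⧸ mulSub G N) := by
  apply AddCommGroup.finite_of_fg_isAddTorsion
  intro q
  induction q using QuotientAddGroup.induction_on with
  | H x =>
    rw [isOfFinAddOrder_iff_nsmul_eq_zero]
    refine ⟨N, hN, ?_⟩
    rw [← QuotientAddGroup.mk_nsmul, QuotientAddGroup.eq_zero_iff]
    exact mem_mulSub.2 ⟨x, rfl⟩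

theorem mk_eq_iff {N : ℕ} {x y : G} :
    (QuotientAddGroup.mk x : G ⧸ mulSub G N) = QuotientAddGroup.mk y ↔ ∃ z, y = x + N • z := by
  rw [QuotientAddGroup.eq, mem_mulSub]
  constructor
  · rintro ⟨z, hz⟩
    exact ⟨z, by rw [hz]; abel⟩
  · rintro ⟨z, hz⟩
    exact ⟨z, by rw [hz]; abel⟩

/-- Inside a class of sets closed under limits of translates, there is one all of whose
occupied cosets modulo `N` are occupied syndetically. -/
theorem exists_syndetic [AddGroup.FG G] (𝒢 : Set (Set G))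
    (hcl : ∀ A ∈ 𝒢, ∀ τ, limSet A τ ∈ 𝒢) (hne : 𝒢.Nonempty) (N : ℕ) (hN : 0 < N) :
    ∃ A ∈ 𝒢, ∀ x0 ∈ A, ∃ B : Finset G, ∀ z, ∃ b ∈ B, x0 + N • (z + b) ∈ A := by
  classical
  haveI := finite_quot (G := G) N hN
  let occ : Set G → Set (G ⧸ mulSub G N) := fun A => QuotientAddGroup.mk '' A
  obtain ⟨A, hA, hmin⟩ : ∃ A ∈ 𝒢, ∀ A' ∈ 𝒢, (occ A).ncard ≤ (occ A').ncard := by
    obtain ⟨A, hA, hmin⟩ := WellFounded.has_min (InvImage.wf (fun A => (occ A).ncard)
      (Nat.lt_wfRel.wf)) 𝒢 hne
    exact ⟨A, hA, fun A' hA' => not_lt.1 (hmin A' hA')⟩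
  refine ⟨A, hA, fun x0 hx0 => ?_⟩
  by_contra hcon
  push Not at hcon
  choose z hz using hcon
  have h1 := hcl A hA (fun B => N • z B)
  have h2 : occ (limSet A (fun B => N • z B)) ⊂ occ A := by
    rw [Set.ssubset_iff_of_subset]
    · refine ⟨QuotientAddGroup.mk x0, ⟨x0, hx0, rfl⟩, ?_⟩
      rintro ⟨x, hx, hxx⟩
      obtain ⟨w, hw⟩ := mk_eq_iff.1 hxx.symm
      have hx' : ∀ᶠ X in (cones G : Filter (Finset G)), x + N • z X ∈ A := hx
      obtain ⟨B, hB1, hB2⟩ := (hx'.and (eventually_mem_cones w)).exists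
      apply hz B w hB2
      rw [smul_add]
      rw [hw] at hB1
      have e : x0 + (N • z B + N • w) = x0 + N • w + N • z B := by abel
      rw [e]; exact hB1
    · rintro q ⟨x, hx, rfl⟩
      have hx' : ∀ᶠ X in (cones G : Filter (Finset G)), x + N • z X ∈ A := hx
      obtain ⟨B, hB⟩ := hx'.exists
      refine ⟨x + N • z B, hB, ?_⟩
      exact (mk_eq_iff.2 ⟨z B, rfl⟩).symm
  have h3 := Set.ncard_lt_ncard h2 (Set.toFinite _)
  exact absurd (hmin _ h1) (not_le.2 h3)

/-- Gallai's theorem applied to a syndetic set -/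
theorem exists_copy {A : Set G} {x0 : G} {N : ℕ} {B : Finset G}
    (hB : ∀ z, ∃ b ∈ B, x0 + N • (z + b) ∈ A) (S : Finset G) :
    ∃ T > 0, ∃ b : G, ∀ s ∈ S, x0 + N • (b + T • s) ∈ A := by
  classical
  choose c hc1 hc2 using hB
  obtain ⟨T, hT, b, b', h⟩ := Combinatorics.exists_mono_homothetic_copy S
    (fun z => (⟨c z, hc1 z⟩ : B))
  refine ⟨T, hT, b + b', fun s hs => ?_⟩
  have h1 := h s hs
  have h2 := hc2 (T • s + b)
  have h3 : c (T • s + b) = b' := by
    have := congrArg Subtype.val h1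
    exact this
  rw [h3] at h2
  have e : b + ↑b' + T • s = T • s + b + ↑b' := by abel
  rw [e]; exact h2

end Vale.Agent.P043
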