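import Vale.Agent.P043.Step

open scoped BigOperators Topology
open Filter

namespace Vale.Agent.P043

variable {G : Type*} [AddCommGroup G]
variable {ι : Type*} [Fintype ι] [DecidableEq ι]

theorem no_diff {A : Set G} {t : ι → G} (h : FamTiles A t) {r : ℕ}
    (hr : Nat.Coprime r (Fintype.card ι)) (hr0 : r ≠ 0) {f1 f2 : ι} (hf : f1 ≠ f2)
    {α : G} (hα : α ∈ A) : α + r • (t f1 - t f2) ∉ A := by
  intro hcon
  haveI : Nonempty ι := ⟨f1⟩
  have h1 := famTiles_nsmul h r hr hr0 (α + r • t f1)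
  have h2 : ∑ i ∈ ({f1, f2} : Finset ι), A.indicator (fun _ => (1 : ℤ))
      (α + r • t f1 - r • t i) ≤ 1 := by
    refine le_trans ?_ h1.le
    exact Finset.sum_le_sum_of_subset_of_nonneg (Finset.subset_univ _)
      (fun i _ _ => Set.indicator_nonneg (fun _ _ => by norm_num) _)
  rw [Finset.sum_pair hf] at h2
  have e1 : α + r • t f1 - r • t f1 = α := by abel
  have e2 : α + r • t f1 - r • t f2 = α + r • (t f1 - t f2) := by rw [smul_sub]; abel
  rw [e1, e2, Set.indicator_of_mem hα, Set.indicator_of_mem hcon] at h2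
  norm_num at h2

theorem avg_vanish {A : Set G} {t : ι → G} (h : FamTiles A t) {f1 f2 : ι} (hf : f1 ≠ f2)
    {N : ℕ} (hN : 1 < N) (hd : Fintype.card ι ∣ N) {a : G → ℝ}
    (ha : IsAvg (N • (t f1 - t f2)) (indR A) a) {x : G} (hx : x + (t f1 - t f2) ∈ A) :
    a x = 0 := by
  set v := t f1 - t f2 with hv
  have key : ∀ k : ℕ, x + k • (N • v) ∉ A := by
    intro k
    rcases Nat.eq_zero_or_pos k with rfl | hk
    · have h1 := no_diff h (r := 1) (Nat.coprime_one_left _) one_ne_zero hf.symm hx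
      rw [one_smul] at h1
      have e : x + v + (t f2 - t f1) = x := by rw [hv]; abel
      rw [e] at h1
      simpa using h1
    · have hkN : 1 < k * N := by nlinarith
      have h1 := no_diff h (r := k * N - 1) (by
        have hd' : Fintype.card ι ∣ k * N := Dvd.dvd.mul_left hd k
        obtain ⟨c, hc⟩ := hd'
        have h2 : Nat.Coprime (k * N - 1) (k * N) := by
          have : k * N = (k * N - 1) + 1 := by omega
          rw [Nat.coprime_comm]
          conv_lhs => rw [this]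
          simp
        exact Nat.Coprime.coprime_dvd_right ⟨c, hc⟩ h2) (by omega) hf hx
      rw [← hv] at h1
      have e : x + v + (k * N - 1) • v = x + k • (N • v) := by
        rw [← mul_smul]
        have : k * N = 1 + (k * N - 1) := by omega
        conv_rhs => rw [this, add_smul, one_smul]
        abel
      rwa [e] at h1
  have h2 : ∀ K : ℕ, act ℝ (avgEl (N • v) K) (indR A) x = 0 := by
    intro K
    rw [act_avgEl]
    have : ∑ k ∈ Finset.range K, indR A (x + k • N • v) = 0 := by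
      refine Finset.sum_eq_zero fun k _ => ?_
      exact Set.indicator_of_notMem (key k) _
    rw [this, mul_zero]
  have h3 := ha x
  simp only [h2] at h3
  exact (tendsto_nhds_unique h3 tendsto_const_nhds)

theorem exists_good_k {A : Set G} {u : G} {a : G → ℝ} (ha : IsAvg u (indR A) a)
    (X : Finset G) : ∃ k : ℕ, ∀ x ∈ X, (a x = 0 ∨ a x = 1) → (x + k • u ∈ A ↔ a x = 1) := by
  classical
  set Y := X.filter (fun x => a x = 0 ∨ a x = 1) with hY
  let bad : G → ℕ → ℝ := fun x k => if (x + k • u ∈ A ↔ a x = 1) then 0 else 1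
  have hbad : ∀ x ∈ Y, Tendsto (fun K : ℕ => (1 / (K : ℝ)) * ∑ k ∈ Finset.range K, bad x k)
      (hyperfilter ℕ : Filter ℕ) (𝓝 0) := by
    intro x hx
    rw [hY, Finset.mem_filter] at hx
    rcases hx.2 with h0 | h1
    · have e : ∀ k, bad x k = indR A (x + k • u) := by
        intro k
        have hne : ¬ a x = 1 := by rw [h0]; norm_num
        by_cases hk : x + k • u ∈ A
        · simp [bad, hk, hne, indR]
        · simp [bad, hk, hne, indR]
      simp only [e]
      have := ha x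
      simp only [act_avgEl] at this
      rwa [h0] at this
    · have e : ∀ k, bad x k = 1 - indR A (x + k • u) := by
        intro k
        by_cases hk : x + k • u ∈ A
        · simp [bad, hk, h1, indR]
        · simp [bad, hk, h1, indR]
      simp only [e]
      have := ha x
      simp only [act_avgEl] at this
      rw [h1] at this
      have h2 : Tendsto (fun K : ℕ => 1 - (1 / (K : ℝ)) * ∑ k ∈ Finset.range K,
          indR A (x + k • u)) (hyperfilter ℕ : Filter ℕ) (𝓝 (1 - 1)) :=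
        tendsto_const_nhds.sub this
      rw [sub_self] at h2
      refine Tendsto.congr' ?_ h2
      have h3 : ∀ᶠ K in (atTop : Filter ℕ), K ≠ 0 := eventually_ne_atTop 0
      filter_upwards [h3.filter_mono Nat.hyperfilter_le_atTop] with K hK
      rw [Finset.sum_sub_distrib]
      simp only [Finset.sum_const, Finset.card_range, nsmul_eq_mul, mul_one]
      have : (K : ℝ) ≠ 0 := by exact_mod_cast hK
      field_simp
  have hsum : Tendsto (fun K : ℕ => ∑ x ∈ Y, (1 / (K : ℝ)) * ∑ k ∈ Finset.range K, bad x k)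
      (hyperfilter ℕ : Filter ℕ) (𝓝 0) := by
    have := tendsto_finsetSum Y hbad
    simpa using this
  have h3 : ∀ᶠ K in (atTop : Filter ℕ), K ≠ 0 := eventually_ne_atTop 0
  obtain ⟨K, hK1, hK2⟩ := ((hsum.eventually (gt_mem_nhds (zero_lt_one))).and
    (h3.filter_mono Nat.hyperfilter_le_atTop)).exists
  have hKpos : (0 : ℝ) < K := by
    have := Nat.pos_of_ne_zero hK2
    exact_mod_cast this
  rw [← Finset.mul_sum, Finset.sum_comm] at hK1
  have h4 : ∑ k ∈ Finset.range K, ∑ x ∈ Y, bad x k < ∑ k ∈ Finset.range K, (1 : ℝ) := by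
    rw [Finset.sum_const, Finset.card_range, nsmul_eq_mul, mul_one]
    rw [one_div, inv_mul_lt_iff₀ hKpos, mul_one] at hK1
    exact hK1
  obtain ⟨k, _, hk⟩ := Finset.exists_lt_of_sum_lt h4
  refine ⟨k, fun x hx hax => ?_⟩
  by_contra hcon
  have h5 : bad x k = 1 := by simp only [bad]; rw [if_neg hcon]
  have h6 : bad x k ≤ ∑ x ∈ Y, bad x k := by
    refine Finset.single_le_sum (f := fun x => bad x k) (fun i _ => ?_) ?_
    · simp only [bad]; split_ifs <;> norm_num
    · rw [hY, Finset.mem_filter]; exact ⟨hx, hax⟩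
  linarith

theorem inv_zsmul {u : G} {a : G → ℝ} (h : ∀ x, a (x + u) = a x) (x : G) (j : ℕ) :
    a (x + j • u) = a x := by
  induction j with
  | zero => simp
  | succ j ih => rw [succ_nsmul, ← add_assoc, h, ih]

theorem main_step [AddGroup.FG G] {t : ι → G} (hyp : SpanHyp t) (hcard : 1 < Fintype.card ι)
    (V : Set G) (N0 : ℕ) (hN0 : 0 < N0) {A0 : Set G} (hA0 : FamTiles A0 t)
    (hV : ∀ v ∈ V, PropInv A0 N0 v) {f1 f2 : ι} (hf : f1 ≠ f2) :
    ∃ (A : Set G) (N : ℕ), 0 < N ∧ FamTiles A t ∧ (∀ v ∈ V, PropInv A N v) ∧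
      PropInv A N (t f1 - t f2) := by
  classical
  set v := t f1 - t f2 with hv
  obtain ⟨N, N1, M, hN, hN1, hNN1, hcN, hstr⟩ := structure_avg hyp hcard v
  have hN2 : 1 < N := lt_of_lt_of_le hcard (Nat.le_of_dvd hN hcN)
  -- the class
  let 𝒢 : Set (Set G) := {A | FamTiles A t ∧ ∀ v ∈ V, PropInv A N0 v}
  obtain ⟨A1, hA1, hsyn⟩ := exists_syndetic 𝒢
    (fun A hA τ => ⟨limSet_tiles hA.1 τ, fun v hv => (hA.2 v hv).limSet τ⟩)
    ⟨A0, hA0, hV⟩ N1 hN1
  obtain ⟨a, ha, ha01⟩ := exists_isAvg (N • v) (indR A1)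
    (fun x => by by_cases h : x ∈ A1 <;> simp [indR, h])
    (fun x => by by_cases h : x ∈ A1 <;> simp [indR, h])
  have hab : Bdd a := ⟨1, fun x => by rw [abs_of_nonneg (ha01 x).1]; exact (ha01 x).2⟩
  have hainv : ∀ x, a (x + N • v) = a x := ha.inv (bdd_indR A1)
  have hpoly := hstr A1 a hA1.1 ha hab
  obtain ⟨S, hS⟩ := isPoly_finite_test (G := G) (T := AddCircle (1 : ℝ)) M
  -- periodicity modulo one on the relevant cosets
  have hper : ∀ x0, x0 + v ∈ A1 → ∃ P : ℕ, 0 < P ∧ ∀ x y,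
      ((a (x0 + N1 • (x + P • y)) : ℝ) : AddCircle (1 : ℝ)) =
        ((a (x0 + N1 • x) : ℝ) : AddCircle (1 : ℝ)) := by
    intro x0 hx0
    obtain ⟨B, hB⟩ := hsyn _ hx0
    obtain ⟨T, hT, b, hb⟩ := exists_copy hB S
    have h1 := hS (fun z => ((a (x0 + N1 • (b + T • z)) : ℝ) : AddCircle (1 : ℝ)))
      ((hpoly x0).scale b T) (by
        intro s hs
        have h2 : a (x0 + N1 • (b + T • s)) = 0 := by
          refine avg_vanish hA1.1 hf hN2 hcN ha ?_
          have e : x0 + N1 • (b + T • s) + (t f1 - t f2) = x0 + v + N1 • (b + T • s) := by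
            rw [hv]; abel
          rw [e]
          exact hb s hs
        simp only [h2, AddCircle.coe_zero])
    exact poly_periodic (hpoly x0) T hT b h1
  choose! P0 hP0 hP0' using hper
  haveI := finite_quot (G := G) N1 hN1
  haveI : Fintype (G ⧸ mulSub G N1) := Fintype.ofFinite _
  -- representatives
  have hrep : ∀ q : G ⧸ mulSub G N1, ∃ x0 : G,
      (∃ x1, QuotientAddGroup.mk x1 = q ∧ x1 + v ∈ A1) →
        (QuotientAddGroup.mk x0 = q ∧ x0 + v ∈ A1) := by
    intro q
    by_cases h : ∃ x1, QuotientAddGroup.mk x1 = q ∧ x1 + v ∈ A1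
    · obtain ⟨x1, hx1⟩ := h
      exact ⟨x1, fun _ => hx1⟩
    · exact ⟨0, fun h' => absurd h' h⟩
  choose rep hrep' using hrep
  let P1 : G ⧸ mulSub G N1 → ℕ := fun q => if (rep q + v ∈ A1) then P0 (rep q) else 1
  set P := ∏ q, P1 q with hP
  have hPpos : 0 < P := by
    refine Finset.prod_pos fun q _ => ?_
    simp only [P1]
    split_ifs with h
    · exact hP0 _ h
    · exact one_pos
  have hzero : ∀ x0, x0 + v ∈ A1 → ∀ y,
      ((a (x0 + (N1 * P) • y) : ℝ) : AddCircle (1 : ℝ)) = 0 := by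
    intro x0 hx0 y
    obtain ⟨hq1, hq2⟩ := hrep' (QuotientAddGroup.mk x0) ⟨x0, rfl, hx0⟩
    obtain ⟨w, hw⟩ := mk_eq_iff.1 hq1
    set r := rep (QuotientAddGroup.mk x0) with hr
    have hdvd : P1 (QuotientAddGroup.mk x0) ∣ P := Finset.dvd_prod_of_mem P1 (Finset.mem_univ _)
    have hP1 : P1 (QuotientAddGroup.mk x0) = P0 r := by
      simp only [P1]
      rw [if_pos hq2]
    rw [hP1] at hdvd
    obtain ⟨c, hc⟩ := hdvd
    have h1 := hP0' r hq2 w (c • y)
    have e1 : r + N1 • (w + P0 r • c • y) = x0 + (N1 * P) • y := by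
      rw [hw, hc, smul_add, mul_smul, mul_smul]; abel
    rw [e1, ← hw] at h1
    rw [h1, avg_vanish hA1.1 hf hN2 hcN ha hx0, AddCircle.coe_zero]
  set N2 := N1 * P with hN2def
  have hN2pos : 0 < N2 := Nat.mul_pos hN1 hPpos
  have claimC : ∀ x z, x + N2 • z + v ∈ A1 → (a x = 0 ∨ a x = 1) := by
    intro x z hx
    have h1 := hzero (x + N2 • z) hx (-z)
    have e : x + N2 • z + N2 • (-z) = x := by rw [smul_neg]; abel
    rw [e] at h1
    obtain ⟨m, hm⟩ := int_of_coe_eq_zero h1
    have h2 := (ha01 x).1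
    have h3 := (ha01 x).2
    rw [hm] at h2 h3
    have h4 : (0 : ℤ) ≤ m := by exact_mod_cast h2
    have h5 : m ≤ (1 : ℤ) := by exact_mod_cast h3
    have h6 : m = 0 ∨ m = 1 := by omega
    rcases h6 with h6 | h6
    · left; rw [hm, h6]; simp
    · right; rw [hm, h6]; simp
  -- the limit
  choose k hk using fun X => exists_good_k ha X
  set A2 := limSet A1 (fun X => k X • (N • v)) with hA2
  have hA2mem : ∀ x, (a x = 0 ∨ a x = 1) → (x ∈ A2 ↔ a x = 1) := by
    intro x hx
    obtain ⟨X, hX1, hX2⟩ := ((limSet_spec A1 (fun X => k X • (N • v)) x).and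
      (eventually_mem_cones x)).exists
    rw [hA2, hX1]
    exact hk X x hX2 hx
  have hinvv : PropInv A2 N2 v := by
    intro x z hx
    have hx' : ∀ᶠ X in (cones G : Filter (Finset G)),
        x + N2 • z + v + k X • (N • v) ∈ A1 := hx
    obtain ⟨X, hX⟩ := hx'.exists
    have e : x + N2 • z + v + k X • (N • v) = (x + k X • (N • v)) + N2 • z + v := by abel
    rw [e] at hX
    have h1 := claimC _ _ hX
    rw [inv_zsmul hainv] at h1
    have h2 : a (x + N2 • v) = a x := by
      obtain ⟨c, hc⟩ := hNN1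
      have e2 : N2 • v = (c * P) • (N • v) := by
        rw [← mul_smul, hN2def, hc]; congr 1; ring
      rw [e2, inv_zsmul hainv]
    rw [hA2mem x h1, hA2mem (x + N2 • v) (by rw [h2]; exact h1), h2]
  refine ⟨A2, N0 * N2, Nat.mul_pos hN0 hN2pos, limSet_tiles hA1.1 _, ?_, ?_⟩
  · intro w hw
    exact ((hA1.2 w hw).limSet _).mul N2
  · rw [mul_comm]
    exact hinvv.mul N0

theorem exists_inv [AddGroup.FG G] {t : ι → G} (hyp : SpanHyp t) (hcard : 1 < Fintype.card ι)
    {A0 : Set G} (hA0 : FamTiles A0 t) :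
    ∃ (A : Set G) (N : ℕ), 0 < N ∧ FamTiles A t ∧
      ∀ f1 f2 : ι, f1 ≠ f2 → PropInv A N (t f1 - t f2) := by
  classical
  have key : ∀ D : Finset (ι × ι), (∀ p ∈ D, p.1 ≠ p.2) →
      ∃ (A : Set G) (N : ℕ), 0 < N ∧ FamTiles A t ∧
        ∀ p ∈ D, PropInv A N (t p.1 - t p.2) := by
    intro D
    induction D using Finset.induction_on with
    | empty => exact fun _ => ⟨A0, 1, one_pos, hA0, by simp⟩
    | insert p D hp ih =>
      intro hD
      obtain ⟨A, N, hN, hA, hAD⟩ := ih (fun q hq => hD q (Finset.mem_insert_of_mem hq))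
      obtain ⟨A', N', hN', hA', h1, h2⟩ := main_step hyp hcard
        {v | ∃ q ∈ D, v = t q.1 - t q.2} N hN hA (by
          rintro v ⟨q, hq, rfl⟩
          exact hAD q hq) (hD p (Finset.mem_insert_self _ _))
      refine ⟨A', N', hN', hA', fun q hq => ?_⟩
      rw [Finset.mem_insert] at hq
      rcases hq with rfl | hq
      · exact h2
      · exact h1 _ ⟨q, hq, rfl⟩
  obtain ⟨A, N, hN, hA, h⟩ := key (Finset.univ.filter fun p : ι × ι => p.1 ≠ p.2) (by
    intro p hp; simpa using hp)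
  exact ⟨A, N, hN, hA, fun f1 f2 hf => h (f1, f2) (by simpa using hf)⟩

end Vale.Agent.P043
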