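import Vale.Agent.P043.Main

open scoped BigOperators

namespace Vale.Agent.P043

variable {G : Type*} [AddCommGroup G]

/-- integer valued indicator -/
noncomputable def ind (A : Set G) : G → ℤ := A.indicator (fun _ => (1 : ℤ))

theorem ind_congr {A B : Set G} {x y : G} (h : x ∈ A ↔ y ∈ B) : ind A x = ind B y := by
  unfold ind
  by_cases hx : x ∈ A
  · rw [Set.indicator_of_mem hx, Set.indicator_of_mem (h.1 hx)]
  · rw [Set.indicator_of_notMem hx, Set.indicator_of_notMem (fun h2 => hx (h.2 h2))]

theorem ind_nonneg (A : Set G) (x : G) : 0 ≤ ind A x :=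
  Set.indicator_nonneg (fun _ _ => by norm_num) x

/-- one-dimensional pigeonhole: a set invariant under `M0 • ker a` whose covering function is
fully periodic may be replaced by a fully periodic one with the same covering function. -/
theorem one_dim [AddGroup.FG G] {ι : Type*} [Fintype ι] (t : ι → G) (a : G →+ ℤ) (A : Set G)
    (M0 M1 : ℕ) (hM0 : 0 < M0) (hM1 : 0 < M1)
    (hA : ∀ x w, a w = 0 → (x ∈ A ↔ x + M0 • w ∈ A))
    (he : ∀ x y, ∑ i, ind A (x + M1 • y - t i) = ∑ i, ind A (x - t i)) :
    ∃ (B : Set G) (M : ℕ), 0 < M ∧ (∀ x y, (x ∈ B ↔ x + M • y ∈ B)) ∧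
      ∀ x, ∑ i, ind B (x - t i) = ∑ i, ind A (x - t i) := by
  classical
  by_cases ha : ∀ x, a x = 0
  · exact ⟨A, M0, hM0, fun x y => hA x y (ha y), fun x => rfl⟩
  push Not at ha
  obtain ⟨e0, he0⟩ := ha
  obtain ⟨e, hepos⟩ : ∃ e, 0 < a e := by
    rcases lt_or_gt_of_ne he0 with h | h
    · exact ⟨-e0, by rw [map_neg]; omega⟩
    · exact ⟨e0, h⟩
  set R : ℤ := ∑ i, |a (t i)| with hR
  have hR0 : 0 ≤ R := Finset.sum_nonneg fun i _ => abs_nonneg _
  have hRi : ∀ i, |a (t i)| ≤ R := fun i =>
    Finset.single_le_sum (f := fun i => |a (t i)|) (fun i _ => abs_nonneg _) (Finset.mem_univ i)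
  set c : ℕ := 2 * R.toNat + 1 with hc
  have hcR : (c : ℤ) = 2 * R + 1 := by
    rw [hc]; push_cast; rw [Int.toNat_of_nonneg hR0]
  set u : G := (M1 * c) • e with hu
  set L : ℤ := a u with hL
  have hLval : L = (M1 : ℤ) * (2 * R + 1) * a e := by
    rw [hL, hu, map_nsmul, nsmul_eq_mul]
    push_cast
    rw [hcR]
  have hM1' : (1 : ℤ) ≤ M1 := by exact_mod_cast hM1
  have hLR : 2 * R < L := by
    rw [hLval]
    have h1 : (2 * R + 1) ≤ (M1 : ℤ) * (2 * R + 1) := by nlinarith
    have h2 : (M1 : ℤ) * (2 * R + 1) ≤ (M1 : ℤ) * (2 * R + 1) * a e := by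
      have : 0 ≤ (M1 : ℤ) * (2 * R + 1) := by positivity
      nlinarith
    linarith
  have hLpos : 0 < L := by linarith
  have heu : ∀ x (j : ℤ), ∑ i, ind A (x + j • u - t i) = ∑ i, ind A (x - t i) := by
    intro x j
    have h1 := he x (j • (c • e))
    have e1 : M1 • (j • (c • e)) = j • u := by
      rw [hu, smul_comm M1 j, ← mul_smul]
    rw [e1] at h1
    exact h1
  -- finitely many states
  haveI := finite_quot (G := G) (M0 * L.toNat) (Nat.mul_pos hM0 (by omega))
  let rep : G ⧸ mulSub G (M0 * L.toNat) → G := fun q => Quotient.out q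
  have hrep : ∀ q, (QuotientAddGroup.mk (rep q) : G ⧸ mulSub G (M0 * L.toNat)) = q :=
    fun q => Quotient.out_eq' q
  let K : G ⧸ mulSub G (M0 * L.toNat) → G := fun q => rep q + (-(a (rep q) / L)) • u
  have hslab : ∀ x, 0 ≤ a x → a x < L → ∃ q w, a w = 0 ∧ x = K q + M0 • w := by
    intro x hx0 hx1
    obtain ⟨y, hy⟩ := mk_eq_iff.1 (hrep (QuotientAddGroup.mk x))
    set q : G ⧸ mulSub G (M0 * L.toNat) := QuotientAddGroup.mk x with hq
    set w : G := L • y - a y • u with hw
    have hw0 : a w = 0 := by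
      rw [hw, map_sub, map_zsmul, map_zsmul, smul_eq_mul, smul_eq_mul, ← hL]; ring
    have h1 : x = rep q + M0 • w + ((M0 : ℤ) * a y) • u := by
      rw [hy, hw]
      have h2 : (M0 * L.toNat) • y = (M0 : ℤ) • (L • y) := by
        rw [← natCast_zsmul, ← mul_smul]
        push_cast
        rw [Int.toNat_of_nonneg hLpos.le]
      rw [h2, ← natCast_zsmul _ M0, smul_sub, mul_smul (M0 : ℤ)]
      abel
    have h3 : a x = a (rep q) + (M0 : ℤ) * a y * L := by
      rw [h1, map_add, map_add, map_nsmul, hw0, map_zsmul, smul_eq_mul, ← hL]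
      simp
    have h4 : (M0 : ℤ) * a y = -(a (rep q) / L) := by
      have h5 : a (rep q) / L = -((M0 : ℤ) * a y) := by
        have h6 : a (rep q) = a x + (-((M0 : ℤ) * a y)) * L := by rw [h3]; ring
        rw [h6, Int.add_mul_ediv_right _ _ hLpos.ne', Int.ediv_eq_zero_of_lt hx0 hx1, zero_add]
      rw [h5]; ring
    refine ⟨q, w, hw0, ?_⟩
    rw [h4] at h1
    rw [h1]
    simp only [K]
    abel
  obtain ⟨j, j', hjj, hst⟩ : ∃ j j' : ℕ, j < j' ∧
      ∀ q, (K q + j • u ∈ A ↔ K q + j' • u ∈ A) := by
    obtain ⟨j, j', hne, heq⟩ := Finite.exists_ne_map_eq_of_infinite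
      (fun j : ℕ => {q : G ⧸ mulSub G (M0 * L.toNat) | K q + j • u ∈ A})
    have heq' : ∀ q, (K q + j • u ∈ A ↔ K q + j' • u ∈ A) := by
      intro q
      have := Set.ext_iff.1 heq q
      simpa using this
    rcases lt_or_gt_of_ne hne with h | h
    · exact ⟨j, j', h, heq'⟩
    · exact ⟨j', j, h, fun q => (heq' q).symm⟩
  have hst' : ∀ x, 0 ≤ a x → a x < L → (x + j • u ∈ A ↔ x + j' • u ∈ A) := by
    intro x hx0 hx1
    obtain ⟨q, w, hw, rfl⟩ := hslab x hx0 hx1
    have e1 : K q + M0 • w + j • u = K q + j • u + M0 • w := by abel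
    have e2 : K q + M0 • w + j' • u = K q + j' • u + M0 • w := by abel
    rw [e1, e2, ← hA _ w hw, ← hA _ w hw]
    exact hst q
  set P : ℕ := j' - j with hP
  have hPpos : 0 < P := by omega
  set p : G := P • u with hp
  set D : ℤ := (P : ℤ) * L with hD
  have hPpos' : (1 : ℤ) ≤ P := by exact_mod_cast hPpos
  have hLD : L ≤ D := by rw [hD]; nlinarith
  have hDpos : 0 < D := by linarith
  have hap : a p = D := by rw [hp, map_nsmul, nsmul_eq_mul, hD]
  let m : G → ℤ := fun x => (a x - j * L) / D
  refine ⟨{x | x - m x • p ∈ A}, M0 * D.toNat, Nat.mul_pos hM0 (by omega), ?_, ?_⟩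
  · -- periodicity
    have h1 : ∀ x (k : ℤ), (x ∈ {x | x - m x • p ∈ A} ↔ x + k • p ∈ {x | x - m x • p ∈ A}) := by
      intro x k
      simp only [Set.mem_setOf_eq]
      have h2 : m (x + k • p) = m x + k := by
        simp only [m]
        rw [map_add, map_zsmul, smul_eq_mul, hap]
        have : a x + k * D - j * L = (a x - j * L) + k * D := by ring
        rw [this, Int.add_mul_ediv_right _ _ hDpos.ne']
      rw [h2]
      have e : x + k • p - (m x + k) • p = x - m x • p := by rw [add_smul]; abel
      rw [e]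
    have h2 : ∀ x w, a w = 0 → (x ∈ {x | x - m x • p ∈ A} ↔
        x + M0 • w ∈ {x | x - m x • p ∈ A}) := by
      intro x w hw
      simp only [Set.mem_setOf_eq]
      have h3 : m (x + M0 • w) = m x := by
        simp only [m]
        rw [map_add, map_nsmul, hw]
        simp
      rw [h3]
      have e : x + M0 • w - m x • p = x - m x • p + M0 • w := by abel
      rw [e]
      exact hA _ _ hw
    intro x y
    set w : G := D • y - a y • p with hw
    have hw0 : a w = 0 := by
      rw [hw, map_sub, map_zsmul, map_zsmul, smul_eq_mul, smul_eq_mul, hap]; ring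
    have e : x + (M0 * D.toNat) • y = x + M0 • w + ((M0 : ℤ) * a y) • p := by
      have h3 : (M0 * D.toNat) • y = (M0 : ℤ) • (D • y) := by
        rw [← natCast_zsmul, ← mul_smul]
        push_cast
        rw [Int.toNat_of_nonneg hDpos.le]
      rw [h3, hw, ← natCast_zsmul _ M0, smul_sub, mul_smul (M0 : ℤ)]
      abel
    rw [e, ← h1, ← h2 _ _ hw0]
  · -- covering function
    intro x
    set m0 : ℤ := (a x - R - j * L) / D with hm0
    have h1 : ∀ i, ind {x | x - m x • p ∈ A} (x - t i) = ind A (x - m0 • p - t i) := by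
      intro i
      apply ind_congr
      simp only [Set.mem_setOf_eq]
      have hti := abs_le.1 (hRi i)
      have hax : a (x - t i) = a x - a (t i) := map_sub _ _ _
      have hlow : m0 ≤ m (x - t i) := by
        simp only [m, hm0]
        apply Int.ediv_le_ediv hDpos
        rw [hax]; linarith
      have hm0' : m0 * D ≤ a x - R - j * L := Int.ediv_mul_le _ hDpos.ne'
      have hm0'' : a x - R - j * L < (m0 + 1) * D := Int.lt_ediv_add_one_mul_self _ hDpos
      have hup : m (x - t i) < m0 + 2 := by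
        simp only [m]
        apply Int.ediv_lt_of_lt_mul hDpos
        rw [hax]
        have : (m0 + 2) * D = (m0 + 1) * D + D := by ring
        rw [this]; linarith
      have hcase : m (x - t i) = m0 ∨ m (x - t i) = m0 + 1 := by omega
      rcases hcase with h | h
      · rw [h]
        have e : x - t i - m0 • p = x - m0 • p - t i := by abel
        rw [e]
      · rw [h]
        have h2 : (m0 + 1) * D ≤ a (x - t i) - j * L := by
          rw [← h]; exact Int.ediv_mul_le _ hDpos.ne'
        set y : G := x - t i - (m0 + 1) • p - (j : ℤ) • u with hy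
        have hay : a y = a (x - t i) - (m0 + 1) * D - j * L := by
          rw [hy, map_sub, map_sub, map_zsmul, map_zsmul, smul_eq_mul, smul_eq_mul, hap, ← hL]
        have h3 := hst' y (by rw [hay]; linarith) (by
          rw [hay, hax]; linarith)
        have e1 : y + j • u = x - t i - (m0 + 1) • p := by
          rw [hy, natCast_zsmul]; abel
        have e2 : y + j' • u = x - m0 • p - t i := by
          have h4 : j' • u = j • u + p := by
            rw [hp, ← add_smul]; congr 1; omega
          rw [h4, ← add_assoc, e1, add_smul, one_smul]; abel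
        rw [e1, e2] at h3
        exact h3
    rw [Finset.sum_congr rfl fun i _ => h1 i]
    have h5 := heu x (-(m0 * P))
    have e3 : x + (-(m0 * (P : ℤ))) • u = x - m0 • p := by
      rw [hp, neg_smul, mul_smul, natCast_zsmul]; abel
    rw [e3] at h5
    exact h5

end Vale.Agent.P043
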