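import Vale.Agent.P043.Basic

open scoped BigOperators

namespace Vale.Agent.P043

variable {G : Type*} [AddCommGroup G] {T : Type*} [AddCommGroup T]

/-- `u` is a polynomial map of degree `< M` -/
def IsPoly : ℕ → (G → T) → Prop
  | 0, u => ∀ x, u x = 0
  | (M + 1), u => ∀ z, IsPoly M (fun x => u (x + z) - u x)

theorem isPoly_finite_test [AddGroup.FG G] (M : ℕ) :
    ∃ S : Finset G, ∀ u : G → T, IsPoly M u → (∀ s ∈ S, u s = 0) → ∀ x, u x = 0 := by
  classical
  induction M with
  | zero => exact ⟨∅, fun u hu _ x => hu x⟩
  | succ M ih =>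
    obtain ⟨S, hS⟩ := ih
    obtain ⟨gens, hgens⟩ : ∃ gens : Finset G, AddSubgroup.closure (gens : Set G) = ⊤ :=
      AddGroup.FG.out
    refine ⟨insert 0 (S ∪ (gens ×ˢ S).image (fun p => p.2 + p.1)), fun u hu hz x => ?_⟩
    have h0 : u 0 = 0 := hz 0 (Finset.mem_insert_self _ _)
    let H : AddSubgroup G :=
      { carrier := {z | ∀ x, u (x + z) = u x}
        add_mem' := by
          intro a b ha hb x
          rw [← add_assoc, hb, ha]
        zero_mem' := by intro x; rw [add_zero]
        neg_mem' := by
          intro a ha x
          have := ha (x + -a)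
          rw [neg_add_cancel_right] at this
          exact this.symm }
    have hH : H = ⊤ := by
      rw [eq_top_iff, ← hgens, AddSubgroup.closure_le]
      intro g hg x
      have h1 := hS (fun x => u (x + g) - u x) (hu g) (by
        intro s hs
        have e1 : u (s + g) = 0 := hz _ (by
          refine Finset.mem_insert_of_mem (Finset.mem_union_right _ ?_)
          rw [Finset.mem_image]
          exact ⟨(g, s), Finset.mem_product.2 ⟨hg, hs⟩, rfl⟩)
        have e2 : u s = 0 := hz _ (Finset.mem_insert_of_mem (Finset.mem_union_left _ hs))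
        simp only [e1, e2, sub_zero]) x
      exact sub_eq_zero.1 h1
    have h2 : x ∈ H := by rw [hH]; trivial
    have h3 := h2 0
    rw [zero_add, h0] at h3
    exact h3

theorem IsPoly.scale {M : ℕ} {u : G → T} (hu : IsPoly M u) (b : G) (N : ℕ) :
    IsPoly M (fun z => u (b + N • z)) := by
  induction M generalizing u with
  | zero => intro x; exact hu _
  | succ M ih =>
    intro z
    have := ih (hu (N • z))
    simp only [smul_add, ← add_assoc]
    exact this

theorem IsPoly.nsmul {M : ℕ} {u : G → T} (hu : IsPoly M u) (C : ℕ) :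
    IsPoly M (fun z => C • u z) := by
  induction M generalizing u with
  | zero => intro x; have h0 := hu x; simp only [h0, smul_zero]
  | succ M ih =>
    intro z
    have := ih (hu z)
    simp only [← smul_sub]
    exact this

theorem sum_shift (u : G → T) (x y : G) (N : ℕ) :
    ∑ i ∈ Finset.range N, (u (x + i • y + y) - u (x + i • y)) = u (x + N • y) - u x := by
  have e : ∀ i : ℕ, x + i • y + y = x + (i + 1) • y := by
    intro i; rw [succ_nsmul]; abel
  simp only [e]
  rw [Finset.sum_range_sub (fun i => u (x + i • y))]
  simp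

theorem inv_torsion {M : ℕ} {u : G → T} (hu : IsPoly M u) (N : ℕ)
    (h : ∀ x y, u (x + N • y) = u x) : ∀ x x', N ^ M • (u x - u x') = 0 := by
  induction M generalizing u with
  | zero =>
    intro x x'
    have h1 := hu x
    have h2 := hu x'
    rw [h1, h2]; simp
  | succ M ih =>
    have key : ∀ x y, N ^ (M + 1) • (u (x + y) - u x) = 0 := by
      intro x y
      have h1 := ih (hu y) (by
        intro x z
        have e : x + N • z + y = (x + y) + N • z := by abel
        simp only [e, h])
      have h2 : ∑ i ∈ Finset.range N, N ^ M • (u (x + i • y + y) - u (x + i • y)) = 0 := by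
        rw [← Finset.smul_sum, sum_shift, h, sub_self, smul_zero]
      have h3 : ∀ i ∈ Finset.range N, N ^ M • (u (x + i • y + y) - u (x + i • y)) =
          N ^ M • (u (x + y) - u x) := by
        intro i _
        have := h1 (x + i • y) x
        rw [smul_sub, sub_eq_zero] at this
        exact this
      rw [Finset.sum_congr rfl h3, Finset.sum_const, Finset.card_range, ← mul_smul,
        ← pow_succ'] at h2
      exact h2
    intro x x'
    have := key x' (x - x')
    rwa [add_sub_cancel] at this

theorem torsion_of_vanish {M : ℕ} {u : G → T} (hu : IsPoly M u) (N : ℕ) (hN : 0 < N) (b : G)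
    (h : ∀ z, u (b + N • z) = 0) : ∃ C : ℕ, 0 < C ∧ ∀ x, C • u x = 0 := by
  -- a uniform constant
  have key : ∀ M : ℕ, ∃ C : ℕ, 0 < C ∧ ∀ u : G → T, IsPoly M u → (∀ z, u (b + N • z) = 0) →
      ∀ x, C • u x = 0 := by
    intro M
    induction M with
    | zero => exact ⟨1, one_pos, fun u hu _ x => by simpa using hu x⟩
    | succ M ih =>
      obtain ⟨C, hC, hC'⟩ := ih
      refine ⟨N ^ (M + 1) * C, by positivity, fun u hu hv x => ?_⟩
      have h1 : ∀ x y, C • u (x + N • y) = C • u x := by
        intro x y
        have := hC' (fun x => u (x + N • y) - u x) (hu (N • y)) (by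
          intro z
          have e : b + N • z + N • y = b + N • (z + y) := by rw [smul_add]; abel
          simp only [e, hv, sub_zero]) x
        simp only [smul_sub, sub_eq_zero] at this
        exact this
      have h2 := inv_torsion (hu.nsmul C) N h1 x b
      have h3 : u b = 0 := by simpa using hv 0
      rw [h3, smul_zero, sub_zero, ← mul_smul] at h2
      exact h2
  obtain ⟨C, hC, hC'⟩ := key M
  exact ⟨C, hC, hC' u hu h⟩

theorem periodic_of_torsion {M : ℕ} {u : G → T} (hu : IsPoly M u) (C : ℕ)
    (h : ∀ x, C • u x = 0) : ∀ x y, u (x + C ^ M • y) = u x := by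
  induction M generalizing u with
  | zero => intro x y; rw [hu, hu]
  | succ M ih =>
    have h1 : ∀ y x z, u (x + C ^ M • z + y) - u (x + C ^ M • z) = u (x + y) - u x := by
      intro y x z
      exact ih (hu y) (by intro x; rw [smul_sub, h, h, sub_zero]) x z
    intro x y
    set P := C ^ M with hP
    have h2 : ∀ j : ℕ, u (x + j • (P • y)) = u x + j • (u (x + P • y) - u x) := by
      intro j
      induction j with
      | zero => simp
      | succ j ihj =>
        have h3 := h1 (P • y) x (j • y)
        have e1 : P • j • y = j • P • y := smul_comm _ _ _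
        rw [e1] at h3
        have e2 : x + (j + 1) • P • y = x + j • P • y + P • y := by rw [succ_nsmul]; abel
        rw [e2, succ_nsmul]
        have h4 : u (x + j • P • y + P • y) = u (x + j • P • y) + (u (x + P • y) - u x) := by
          rw [← h3]; abel
        rw [h4, ihj]
        abel
    have h5 := h2 C
    have e3 : C • P • y = C ^ (M + 1) • y := by rw [← mul_smul, hP, pow_succ']
    rw [e3, smul_sub, h, h, sub_zero, add_zero] at h5
    exact h5

theorem poly_periodic {M : ℕ} {u : G → T} (hu : IsPoly M u) (N : ℕ) (hN : 0 < N) (b : G)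
    (h : ∀ z, u (b + N • z) = 0) : ∃ P : ℕ, 0 < P ∧ ∀ x y, u (x + P • y) = u x := by
  obtain ⟨C, hC, hC'⟩ := torsion_of_vanish hu N hN b h
  exact ⟨C ^ M, by positivity, periodic_of_torsion hu C hC'⟩

end Vale.Agent.P043
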