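import Vale.Agent.P043.Avg
import Vale.Agent.P043.Poly
import Vale.Agent.P043.Limit

open scoped BigOperators Topology
open Filter

namespace Vale.Agent.P043

variable {G : Type*} [AddCommGroup G]

/-- the subgroup of `y` with `X^y - 1 ∈ I` -/
noncomputable def perSub (I : Ideal (AddMonoidAlgebra ℝ G)) : AddSubgroup G where
  carrier := {y | mon ℝ y - 1 ∈ I}
  add_mem' := by
    intro a b ha hb
    simp only [Set.mem_setOf_eq] at *
    have : mon ℝ (a + b) - 1 = mon ℝ a * (mon ℝ b - 1) + (mon ℝ a - 1) := by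
      rw [mon_add]; ring
    rw [this]
    exact I.add_mem (I.mul_mem_left _ hb) ha
  zero_mem' := by
    simp [mon_zero]
  neg_mem' := by
    intro a ha
    simp only [Set.mem_setOf_eq] at *
    have : mon ℝ (-a) - 1 = -mon ℝ (-a) * (mon ℝ a - 1) := by
      have h1 : mon ℝ (-a) * mon ℝ a = 1 := by rw [← mon_add, neg_add_cancel, mon_zero]
      linear_combination h1
    rw [this]
    exact I.mul_mem_left _ ha

theorem mem_perSub {I : Ideal (AddMonoidAlgebra ℝ G)} {y : G} :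
    y ∈ perSub I ↔ mon ℝ y - 1 ∈ I := Iff.rfl

theorem perSub_mapIdeal {ι : Type*} (n : ℕ) (t : ι → G) (γ : ι → ι) {y : G}
    (hy : y ∈ AddSubgroup.closure (Set.range fun f => t f - t (γ f))) :
    n • y ∈ perSub (mapIdeal n t γ) := by
  induction hy using AddSubgroup.closure_induction with
  | mem x hx =>
    obtain ⟨f, rfl⟩ := hx
    exact Ideal.subset_span ⟨f, rfl⟩
  | zero => simp [(perSub (mapIdeal n t γ)).zero_mem]
  | add x y _ _ hx hy => rw [smul_add]; exact add_mem hx hy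
  | neg x _ hx => rw [smul_neg]; exact neg_mem hx

/-- integer valued functions -/
def IntVal (φ : G → ℝ) : Prop := ∀ x, ∃ m : ℤ, φ x = m

theorem IntVal.act_mon_sub {φ : G → ℝ} (h : IntVal φ) (y : G) :
    IntVal (act ℝ (mon ℝ y - 1) φ) := by
  intro x
  obtain ⟨a, ha⟩ := h (x + y)
  obtain ⟨b, hb⟩ := h x
  refine ⟨a - b, ?_⟩
  rw [act_sub_apply, act_one_apply, Pi.sub_apply, act_mon, ha, hb]
  push_cast
  rfl

theorem IntVal.act_prod {κ : Type*} {φ : G → ℝ} (h : IntVal φ) (S : Finset κ) (y : κ → G) :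
    IntVal (act ℝ (∏ i ∈ S, (mon ℝ (y i) - 1)) φ) := by
  classical
  induction S using Finset.induction_on with
  | empty => simpa [act_one_apply] using h
  | insert i S hi ih =>
    rw [Finset.prod_insert hi, act_mul_apply]
    exact ih.act_mon_sub _

theorem intVal_indR (A : Set G) : IntVal (indR A) := by
  intro x
  by_cases h : x ∈ A
  · exact ⟨1, by simp [indR, h]⟩
  · exact ⟨0, by simp [indR, h]⟩

theorem coe_eq_zero_of_int {r : ℝ} (h : ∃ m : ℤ, r = m) : ((r : ℝ) : AddCircle (1 : ℝ)) = 0 := by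
  obtain ⟨m, rfl⟩ := h
  rw [AddCircle.coe_eq_zero_iff]
  exact ⟨m, by simp⟩

theorem int_of_coe_eq_zero {r : ℝ} (h : ((r : ℝ) : AddCircle (1 : ℝ)) = 0) :
    ∃ m : ℤ, r = m := by
  rw [AddCircle.coe_eq_zero_iff] at h
  obtain ⟨m, hm⟩ := h
  exact ⟨m, by rw [← hm]; simp⟩

theorem isPoly_of_prod {κ : Type*} (S : Finset κ) (N : ℕ) (x0 : G) (a : G → ℝ)
    (h : ∀ z : κ → G, IntVal (act ℝ (∏ i ∈ S, (mon ℝ (N • z i) - 1)) a)) :
    IsPoly S.card (fun z => ((a (x0 + N • z) : ℝ) : AddCircle (1 : ℝ))) := by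
  classical
  induction S using Finset.induction_on generalizing a with
  | empty =>
    intro x
    have := h (fun _ => 0)
    rw [Finset.prod_empty, act_one_apply] at this
    exact coe_eq_zero_of_int (this _)
  | insert i S hi ih =>
    rw [Finset.card_insert_of_notMem hi]
    intro z0
    have h1 := ih (act ℝ (mon ℝ (N • z0) - 1) a) (by
      intro z
      have h2 := h (Function.update z i z0)
      rw [Finset.prod_insert hi, Function.update_self] at h2
      have h3 : ∏ j ∈ S, (mon ℝ (N • Function.update z i z0 j) - 1) =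
          ∏ j ∈ S, (mon ℝ (N • z j) - 1) := by
        refine Finset.prod_congr rfl fun j hj => ?_
        rw [Function.update_of_ne (by rintro rfl; exact hi hj)]
      rw [h3, mul_comm, act_mul_apply] at h2
      exact h2)
    have h4 : (fun x => (((a (x0 + N • (x + z0)) : ℝ) : AddCircle (1 : ℝ)) -
        ((a (x0 + N • x) : ℝ) : AddCircle (1 : ℝ)))) =
        fun z => (((act ℝ (mon ℝ (N • z0) - 1) a) (x0 + N • z) : ℝ) : AddCircle (1 : ℝ)) := by
      ext x
      rw [act_sub_apply, act_one_apply, Pi.sub_apply, act_mon, smul_add, ← add_assoc,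
        AddCircle.coe_sub]
    show IsPoly S.card (fun x => (((a (x0 + N • (x + z0)) : ℝ) : AddCircle (1 : ℝ)) -
        ((a (x0 + N • x) : ℝ) : AddCircle (1 : ℝ))))
    rw [h4]
    exact h1

theorem bdd_indR (A : Set G) : Bdd (indR A) := by
  refine ⟨1, fun x => ?_⟩
  by_cases h : x ∈ A <;> simp [indR, h]

theorem IsAvg.annih_le {u : G} {φ a : G → ℝ} (h : IsAvg u φ a) : annih φ ≤ annih a := by
  intro P hP
  rw [mem_annih] at hP ⊢
  have h1 := h.actP P
  rw [hP] at h1
  exact h1.unique (isAvg_of_inv (fun _ => rfl))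

section structure_

variable {ι : Type*} [Fintype ι] [DecidableEq ι]

/-- the spanning hypothesis -/
def SpanHyp (t : ι → G) : Prop :=
  ∀ γ : ι → ι, (∀ f, γ f ≠ f) → ∃ (a : G →+ ℤ) (m : ℕ), 0 < m ∧
    ∀ x, a x = 0 → m • x ∈ AddSubgroup.closure (Set.range fun f => t f - t (γ f))

theorem structure_avg {t : ι → G} (hyp : SpanHyp t) (hcard : 1 < Fintype.card ι) (v : G) :
    ∃ N N1 M : ℕ, 0 < N ∧ 0 < N1 ∧ N ∣ N1 ∧ Fintype.card ι ∣ N ∧
      ∀ (A : Set G) (a : G → ℝ), FamTiles A t → IsAvg (N • v) (indR A) a → Bdd a →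
        ∀ x0, IsPoly M (fun z => ((a (x0 + N1 • z) : ℝ) : AddCircle (1 : ℝ))) := by
  classical
  set n := Fintype.card ι with hn
  have hyp' : ∀ γ : ι → ι, ∃ (a : G →+ ℤ) (m : ℕ), 0 < m ∧ (γ ∈ fpf ι →
      ∀ x, a x = 0 → m • x ∈ AddSubgroup.closure (Set.range fun f => t f - t (γ f))) := by
    intro γ
    by_cases h : γ ∈ fpf ι
    · have h' : ∀ f, γ f ≠ f := by
        simpa [fpf] using h
      obtain ⟨a, m, hm, ham⟩ := hyp γ h'
      exact ⟨a, m, hm, fun _ => ham⟩
    · exact ⟨0, 1, one_pos, fun h' => absurd h' h⟩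
  choose α m hm hα using hyp'
  set N := n * ∏ γ ∈ fpf ι, m γ with hN
  set Γ1 := (fpf ι).filter (fun γ => ¬ α γ v = 0) with hΓ1
  set Γ0 := (fpf ι).filter (fun γ => α γ v = 0) with hΓ0
  set Q := ∏ γ ∈ Γ1, (m γ * (α γ v).natAbs) with hQ
  have hNpos : 0 < N := Nat.mul_pos (by omega) (Finset.prod_pos fun γ _ => hm γ)
  have hQpos : 0 < Q := by
    refine Finset.prod_pos fun γ hγ => Nat.mul_pos (hm γ) ?_
    rw [hΓ1, Finset.mem_filter] at hγ
    exact Int.natAbs_pos.2 hγ.2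
  refine ⟨N, N * Q, Γ1.card, hNpos, Nat.mul_pos hNpos hQpos, Dvd.intro _ rfl, Dvd.intro _ rfl,
    ?_⟩
  intro A a hA ha hb x0
  apply isPoly_of_prod Γ1 (N * Q) x0 a
  intro z
  set u := N • v with hu
  have hinv : mon ℝ u - 1 ∈ annih a := by
    rw [mem_annih]
    ext x
    rw [act_sub_apply, act_one_apply, Pi.sub_apply, act_mon, ha.inv (bdd_indR A)]
    simp
  -- decompositions
  have hdec : ∀ γ ∈ Γ1, ∃ (l : G) (j : ℤ),
      l ∈ AddSubgroup.closure (Set.range fun f => t f - t (γ f)) ∧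
      (N * Q) • z γ = n • l + j • u := by
    intro γ hγ
    have hγ' := hγ
    rw [hΓ1, Finset.mem_filter] at hγ'
    obtain ⟨hγf, hβ⟩ := hγ'
    set β := α γ v with hβdef
    have h1 := hα γ hγf (β • z γ - (α γ (z γ)) • v) (by
      rw [map_sub, map_zsmul, map_zsmul]
      simp only [smul_eq_mul]
      rw [← hβdef]; ring)
    obtain ⟨Q', hQ'⟩ := Finset.dvd_prod_of_mem (fun γ => m γ * (α γ v).natAbs) hγ
    have hQ'' : Q = m γ * β.natAbs * Q' := hQ'
    obtain ⟨ε, hε, hε'⟩ : ∃ ε : ℤ, ε * ε = 1 ∧ (β.natAbs : ℤ) = ε * β := by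
      rcases le_or_gt 0 β with hb' | hb'
      · exact ⟨1, by norm_num, by rw [Int.natAbs_of_nonneg hb', one_mul]⟩
      · refine ⟨-1, by norm_num, ?_⟩
        rw [Int.ofNat_natAbs_of_nonpos hb'.le]; ring
    refine ⟨(((∏ γ ∈ fpf ι, m γ) * Q' : ℕ) : ℤ) • (ε • (m γ • (β • z γ - (α γ (z γ)) • v))),
      ((Q' * m γ : ℕ) : ℤ) * ε * α γ (z γ), ?_, ?_⟩
    · exact AddSubgroup.zsmul_mem _ (AddSubgroup.zsmul_mem _ h1 _) _
    · have e1 : ((N * Q : ℕ) : ℤ) = (N : ℤ) * (Q' : ℤ) * (m γ : ℤ) * (ε * β) := by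
        rw [hQ'']; push_cast; rw [← Int.natCast_natAbs, hε']; ring
      have e2 : (N : ℤ) = (n : ℤ) * ((∏ γ ∈ fpf ι, m γ : ℕ) : ℤ) := by
        rw [hN]; push_cast; ring
      rw [← natCast_zsmul (z γ) (N * Q), e1, hu, ← natCast_zsmul v N, ← natCast_zsmul _ n,
        ← natCast_zsmul _ (m γ)]
      simp only [← mul_smul, smul_sub]
      push_cast
      rw [e2]
      push_cast
      module
  choose! l j hl hj using hdec
  -- replace the translations
  have hprod : act ℝ (∏ γ ∈ Γ1, (mon ℝ ((N * Q) • z γ) - 1)) a =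
      act ℝ (∏ γ ∈ Γ1, (mon ℝ (n • l γ) - 1)) a := by
    rw [← sub_eq_zero, ← act_sub_apply, ← mem_annih, ← Ideal.Quotient.eq_zero_iff_mem, map_sub,
      map_prod, map_prod, sub_eq_zero]
    refine Finset.prod_congr rfl fun γ hγ => ?_
    rw [hj γ hγ, ← sub_eq_zero, ← map_sub, Ideal.Quotient.eq_zero_iff_mem]
    have h1 : mon ℝ (n • l γ + j γ • u) - 1 - (mon ℝ (n • l γ) - 1) =
        mon ℝ (n • l γ) * (mon ℝ (j γ • u) - 1) := by
      rw [mon_add]; ring
    rw [h1]
    refine Ideal.mul_mem_left _ _ ?_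
    exact AddSubgroup.zsmul_mem (perSub (annih a)) hinv _
  rw [hprod]
  -- the annihilation
  have hann : (∏ γ ∈ Γ1, (mon ℝ (n • l γ) - 1)) * (mon ℝ u - 1) ^ Γ0.card ∈
      annih (indR A) := by
    apply prod_mapIdeal_le hA hcard
    rw [← hn]
    have h1 : ∏ γ ∈ fpf ι, (if γ ∈ Γ1 then (mon ℝ (n • l γ) - 1) else (mon ℝ u - 1)) ∈
        ∏ γ ∈ fpf ι, mapIdeal n t γ := by
      refine Ideal.prod_mem_prod fun γ hγ => ?_
      split_ifs with h
      · exact perSub_mapIdeal n t γ (hl γ h)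
      · have hv0 : α γ v = 0 := by
          by_contra h0
          exact h (by rw [hΓ1, Finset.mem_filter]; exact ⟨hγ, h0⟩)
        obtain ⟨Q', hQ'⟩ := Finset.dvd_prod_of_mem m hγ
        have h2 := hα γ hγ v hv0
        have h3 : u = n • (Q' • (m γ • v)) := by
          rw [hu, hN, hQ', ← mul_smul, ← mul_smul]
          congr 1; ring
        rw [h3]
        exact perSub_mapIdeal n t γ (AddSubgroup.nsmul_mem _ h2 _)
    have h4 : ∏ γ ∈ fpf ι, (if γ ∈ Γ1 then (mon ℝ (n • l γ) - 1) else (mon ℝ u - 1)) =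
        (∏ γ ∈ Γ1, (mon ℝ (n • l γ) - 1)) * (mon ℝ u - 1) ^ Γ0.card := by
      rw [← Finset.prod_filter_mul_prod_filter_not (fpf ι) (fun γ => ¬ α γ v = 0)]
      congr 1
      · refine Finset.prod_congr rfl fun γ hγ => ?_
        rw [if_pos hγ]
      · rw [← Finset.prod_const]
        have : (fpf ι).filter (fun γ => ¬¬ α γ v = 0) = Γ0 := by
          rw [hΓ0]; ext γ; simp
        rw [this]
        refine Finset.prod_congr rfl fun γ hγ => ?_
        rw [if_neg]
        rw [hΓ1, Finset.mem_filter]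
        rw [hΓ0, Finset.mem_filter] at hγ
        exact fun h => h.2 hγ.2
    rw [← h4]
    exact h1
  have hann2 : (∏ γ ∈ Γ1, (mon ℝ (n • l γ) - 1)) * (mon ℝ u - 1) ^ Γ0.card ∈
      annih (indR A - a) := by
    have h5 := ha.annih_le hann
    rw [mem_annih] at hann h5 ⊢
    rw [map_sub, hann, h5, sub_zero]
  have hann3 := removal ha (bdd_indR A) hb _ _ hann2
  rw [mem_annih, map_sub, sub_eq_zero] at hann3
  rw [← hann3]
  exact (intVal_indR A).act_prod _ _

end structure_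

end Vale.Agent.P043
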