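import Mathlib

/-!
# P043, layer 3: finitely many tiling equations over `K × ℤ` become one tile
-/

set_option linter.unusedSectionVars false

universe u

namespace Vale.Agent.P043.OneTile
open Finset
noncomputable section

/-- `A ⊕ E = G` (internal form) -/
def Tiles {G : Type*} [AddCommGroup G] (A E : Set G) : Prop :=
  ∀ g : G, ∃! e, e ∈ E ∧ g - e ∈ A

/-- `A` is invariant under a subgroup of finite index -/
def Per {G : Type*} [AddCommGroup G] (A : Set G) : Prop :=
  ∃ H : AddSubgroup G, H.FiniteIndex ∧ ∀ h ∈ H, ∀ a ∈ A, a + h ∈ A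

/-! ## counting in a finite quotient -/

theorem tiles_of_packing {G Q : Type*} [AddCommGroup G] [AddCommGroup Q] [Finite Q] (π : G →+ Q)
    (hπ : Function.Surjective π) (A : Set G) (B : Set Q) (hAB : ∀ g, g ∈ A ↔ π g ∈ B)
    (E P : Finset G) (hEP : E.card ≤ P.card) (hE : Tiles A (E : Set G))
    (hP : ∀ g, ∀ p ∈ P, ∀ p' ∈ P, g - p ∈ A → g - p' ∈ A → p = p') :
    Tiles A (P : Set G) := by
  classical
  have := Fintype.ofFinite Q
  -- number of representations
  have hcount : ∀ S : Finset G, ∑ q : Q, (S.filter fun e => q - π e ∈ B).card =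
      S.card * (univ.filter fun q : Q => q ∈ B).card := by
    intro S
    have h1 : ∀ q : Q, (S.filter fun e => q - π e ∈ B).card =
        ∑ e ∈ S, if q - π e ∈ B then 1 else 0 := fun q => by rw [Finset.card_filter]
    simp_rw [h1]
    rw [Finset.sum_comm, Finset.card_eq_sum_ones S, Finset.sum_mul]
    refine Finset.sum_congr rfl fun e _ => ?_
    rw [one_mul, ← Finset.card_filter]
    refine Finset.card_bij (fun q _ => q - π e) ?_ ?_ ?_
    · intro q hq
      simpa using hq
    · intro q _ q' _ h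
      simpa using h
    · intro q hq
      refine ⟨q + π e, ?_, by simp⟩
      simpa using hq
  have hE1 : ∀ q : Q, (E.filter fun e => q - π e ∈ B).card = 1 := by
    intro q
    obtain ⟨g, rfl⟩ := hπ q
    obtain ⟨e, ⟨he, heA⟩, huniq⟩ := hE g
    rw [Finset.card_eq_one]
    refine ⟨e, ?_⟩
    ext e'
    rw [Finset.mem_filter, Finset.mem_singleton]
    constructor
    · rintro ⟨h1, h2⟩
      refine huniq e' ⟨h1, ?_⟩
      rw [hAB, map_sub]
      exact h2
    · rintro rfl
      refine ⟨he, ?_⟩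
      rw [hAB, map_sub] at heA
      exact heA
  have hPle : ∀ q : Q, (P.filter fun e => q - π e ∈ B).card ≤ 1 := by
    intro q
    obtain ⟨g, rfl⟩ := hπ q
    rw [Finset.card_le_one]
    intro p hp p' hp'
    rw [Finset.mem_filter] at hp hp'
    refine hP g p hp.1 p' hp'.1 ?_ ?_
    · rw [hAB, map_sub]
      exact hp.2
    · rw [hAB, map_sub]
      exact hp'.2
  have hsumE := hcount E
  have hsumP := hcount P
  rw [Finset.sum_congr rfl fun q _ => hE1 q] at hsumE
  have hge : ∑ q : Q, 1 ≤ ∑ q : Q, (P.filter fun e => q - π e ∈ B).card := by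
    rw [hsumE, hsumP]
    exact Nat.mul_le_mul_right _ hEP
  have hall : ∀ q : Q, (P.filter fun e => q - π e ∈ B).card = 1 := by
    intro q
    by_contra hne
    have hlt : (P.filter fun e => q - π e ∈ B).card < 1 := lt_of_le_of_ne (hPle q) hne
    have := Finset.sum_lt_sum (fun q (_ : q ∈ (univ : Finset Q)) => hPle q)
      ⟨q, Finset.mem_univ q, hlt⟩
    omega
  intro g
  obtain ⟨e, he⟩ := Finset.card_eq_one.mp (hall (π g))
  have he' : e ∈ P.filter fun e => π g - π e ∈ B := by rw [he]; exact Finset.mem_singleton_self e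
  rw [Finset.mem_filter] at he'
  have heA : g - e ∈ A := by rw [hAB, map_sub]; exact he'.2
  exact ⟨e, ⟨he'.1, heA⟩, fun e' h => hP g e' h.1 e he'.1 h.2 heA⟩

/-- the finite quotient for a group of periods -/
theorem exists_quotient {G : Type u} [AddCommGroup G] (H : AddSubgroup G) (hH : H.FiniteIndex)
    (A : Set G) (hA : ∀ h ∈ H, ∀ a ∈ A, a + h ∈ A) :
    ∃ (Q : Type u) (_ : AddCommGroup Q) (_ : Finite Q) (π : G →+ Q) (B : Set Q),
      Function.Surjective π ∧ ∀ g, g ∈ A ↔ π g ∈ B := by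
  have : Finite (G ⧸ H) := AddSubgroup.finite_quotient_of_finiteIndex
  refine ⟨G ⧸ H, inferInstance, inferInstance, QuotientAddGroup.mk' H,
    (QuotientAddGroup.mk' H) '' A, QuotientAddGroup.mk'_surjective H, ?_⟩
  intro g
  constructor
  · intro hg
    exact ⟨g, hg, rfl⟩
  · rintro ⟨g', hg', he⟩
    rw [QuotientAddGroup.mk'_apply, QuotientAddGroup.mk'_apply, QuotientAddGroup.eq] at he
    have h1 := hA _ he g' hg'
    have h2 : g' + (-g' + g) = g := by abel
    rwa [h2] at h1

section tile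

variable {K : Type*} [AddCommGroup K] [DecidableEq K]

/-- `{0, s} × [0, M)` -/
def F0 (s : K) (M : ℕ) : Finset (K × ℤ) := ({0, s} : Finset K) ×ˢ Finset.Ico (0 : ℤ) M

theorem mem_F0 {s : K} {M : ℕ} {g : K × ℤ} :
    g ∈ F0 s M ↔ (g.1 = 0 ∨ g.1 = s) ∧ 0 ≤ g.2 ∧ g.2 < M := by
  unfold F0
  rw [Finset.mem_product, Finset.mem_insert, Finset.mem_singleton, Finset.mem_Ico]

theorem card_F0 {s : K} (hs : s ≠ 0) (M : ℕ) : (F0 s M).card = 2 * M := by
  unfold F0
  rw [Finset.card_product, Finset.card_pair (Ne.symm hs), Int.card_Ico]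
  simp

/-- translate of `F0` -/
def F0t (s : K) (M : ℕ) (e : K) : Finset (K × ℤ) := (F0 s M).image fun g => (g.1 + e, g.2)

theorem mem_F0t {s : K} {M : ℕ} {e : K} {g : K × ℤ} :
    g ∈ F0t s M e ↔ (g.1 - e, g.2) ∈ F0 s M := by
  unfold F0t
  rw [Finset.mem_image]
  constructor
  · rintro ⟨g', h1, rfl⟩
    simpa using h1
  · intro h
    exact ⟨_, h, by simp⟩

theorem card_F0t_le {s : K} (hs : s ≠ 0) (M : ℕ) (e : K) : (F0t s M e).card ≤ 2 * M :=
  Finset.card_image_le.trans (card_F0 hs M).le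

/-- the tile made of the sets `Γ 0, ..., Γ (R - 1)` -/
def mkTile (R : ℕ) (Γ : ℕ → Finset (K × ℤ)) : Finset (K × ℤ) :=
  (Finset.range R).biUnion fun r => (Γ r).image fun g => (g.1, (R : ℤ) * g.2 + (r : ℤ))

theorem mem_mkTile {R : ℕ} {Γ : ℕ → Finset (K × ℤ)} {g : K × ℤ} :
    g ∈ mkTile R Γ ↔ ∃ r < R, ∃ u : ℤ, (g.1, u) ∈ Γ r ∧ g.2 = (R : ℤ) * u + (r : ℤ) := by
  unfold mkTile
  rw [Finset.mem_biUnion]
  constructor
  · rintro ⟨r, hr, h⟩
    obtain ⟨g', h1, rfl⟩ := Finset.mem_image.mp h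
    exact ⟨r, Finset.mem_range.mp hr, g'.2, h1, rfl⟩
  · rintro ⟨r, hr, u, h1, h2⟩
    refine ⟨r, Finset.mem_range.mpr hr, Finset.mem_image.mpr ⟨(g.1, u), h1, ?_⟩⟩
    exact Prod.ext rfl h2.symm

theorem card_mkTile_le {R M : ℕ} {Γ : ℕ → Finset (K × ℤ)} (h : ∀ r < R, (Γ r).card ≤ 2 * M) :
    (mkTile R Γ).card ≤ 2 * (R * M) := by
  unfold mkTile
  refine Finset.card_biUnion_le.trans ?_
  calc ∑ r ∈ Finset.range R, ((Γ r).image fun g => (g.1, (R : ℤ) * g.2 + (r : ℤ))).card
      ≤ ∑ r ∈ Finset.range R, 2 * M :=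
        Finset.sum_le_sum fun r hr => Finset.card_image_le.trans (h r (Finset.mem_range.mp hr))
    _ = 2 * (R * M) := by
        rw [Finset.sum_const, Finset.card_range, smul_eq_mul]
        ring

/-- division with remainder -/
theorem decomp_unique {R : ℕ} {u u' : ℤ} {r r' : ℕ} (hr : r < R) (hr' : r' < R)
    (h : (R : ℤ) * u + r = (R : ℤ) * u' + r') : u = u' ∧ r = r' := by
  have hR : (0 : ℤ) < R := by exact_mod_cast (Nat.zero_le r).trans_lt hr
  have h1 : ((R : ℤ) * u + r) / R = u := by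
    rw [Int.add_comm, Int.add_mul_ediv_left _ _ hR.ne', Int.ediv_eq_zero_of_lt (by positivity)
      (by exact_mod_cast hr), zero_add]
  have h2 : ((R : ℤ) * u' + r') / R = u' := by
    rw [Int.add_comm, Int.add_mul_ediv_left _ _ hR.ne', Int.ediv_eq_zero_of_lt (by positivity)
      (by exact_mod_cast hr'), zero_add]
  have h3 : u = u' := by rw [← h1, ← h2, h]
  subst h3
  exact ⟨rfl, by exact_mod_cast add_left_cancel h⟩

theorem exists_decomp {R : ℕ} (hR : 0 < R) (v : ℤ) :
    ∃ (u : ℤ) (r : ℕ), r < R ∧ v = (R : ℤ) * u + r := by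
  have hR' : (0 : ℤ) < R := by exact_mod_cast hR
  refine ⟨v / R, (v % R).toNat, ?_, ?_⟩
  · have h1 := Int.emod_lt_of_pos v hR'
    have h0 := Int.emod_nonneg v hR'.ne'
    omega
  · have h0 := Int.emod_nonneg v hR'.ne'
    rw [Int.toNat_of_nonneg h0]
    exact (Int.mul_ediv_add_emod v R).symm

/-- existence of a tiling -/
theorem mkTile_tiles {R : ℕ} (hR : 0 < R) {Γ : ℕ → Finset (K × ℤ)} (A : Set (K × ℤ))
    (h : ∀ r < R, Tiles A (Γ r : Set (K × ℤ))) :
    ∃ A' : Set (K × ℤ), Tiles A' (mkTile R Γ : Set (K × ℤ)) := by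
  refine ⟨{g | ∃ u : ℤ, g.2 = (R : ℤ) * u ∧ (g.1, u) ∈ A}, ?_⟩
  rintro ⟨k, v⟩
  obtain ⟨q, r, hr, rfl⟩ := exists_decomp hR v
  obtain ⟨⟨k0, u0⟩, ⟨he, heA⟩, huniq⟩ := h r hr (k, q)
  refine ⟨(k0, (R : ℤ) * u0 + r), ⟨?_, ?_⟩, ?_⟩
  · rw [Finset.mem_coe, mem_mkTile]
    exact ⟨r, hr, u0, he, rfl⟩
  · refine ⟨q - u0, ?_, heA⟩
    simp only [Prod.snd_sub]
    ring
  · rintro ⟨k1, v1⟩ ⟨h1, u, hu, huA⟩
    rw [Finset.mem_coe, mem_mkTile] at h1
    obtain ⟨r1, hr1, u1, h2, h3⟩ := h1
    simp only at h3 hu huA h2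
    subst h3
    simp only [Prod.snd_sub, Prod.fst_sub] at hu huA
    have h4 : (R : ℤ) * q + r = (R : ℤ) * (u + u1) + r1 := by linarith
    obtain ⟨h5, h6⟩ := decomp_unique hr hr1 h4
    subst h6
    have h7 : (k1, u1) = (k0, u0) := by
      refine huniq _ ⟨h2, ?_⟩
      have : (k, q) - (k1, u1) = (k - k1, u) := by
        rw [Prod.mk_sub_mk, h5]
        simp
      rw [this]
      exact huA
    obtain ⟨rfl, rfl⟩ := Prod.mk.inj h7
    rfl

/-- **the converse**: a periodic tiling by the big tile gives a periodic solution of all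
equations -/
theorem tiles_of_mkTile {R M : ℕ} (hR : 0 < R) (hM : 0 < M) {s : K}
    (hs : s ≠ 0) {Γ : ℕ → Finset (K × ℤ)} (gens : Set K)
    (hgens : AddSubgroup.closure gens = ⊤)
    (P1 : ∀ r < R, (Γ r).card ≤ 2 * M)
    (P2 : ∀ d < R, ∃ r1 r2, r1 < R ∧ r2 < R ∧ Γ r1 = F0 s M ∧ Γ r2 = F0 s M ∧ r2 = r1 + d)
    (P4 : ∀ e ∈ gens, ∀ d, 0 < d → d < R → ∃ r0 rb, r0 < R ∧ rb < R ∧ Γ r0 = F0 s M ∧
      Γ rb = F0t s M e ∧ (rb = r0 + d ∨ rb + R = r0 + d))
    (A : Set (K × ℤ)) (hA : Tiles A (mkTile R Γ : Set (K × ℤ))) (hper : Per A) :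
    ∃ A1 : Set (K × ℤ), Per A1 ∧ ∀ r < R, Tiles A1 (Γ r : Set (K × ℤ)) := by
  classical
  have hRM : 0 < R * M := Nat.mul_pos hR hM
  have hRZ : (0 : ℤ) < R := by exact_mod_cast hR
  have hMZ : (0 : ℤ) < M := by exact_mod_cast hM
  -- uniqueness of representation
  have huni : ∀ g f f' : K × ℤ, f ∈ mkTile R Γ → f' ∈ mkTile R Γ → g - f ∈ A → g - f' ∈ A →
      f = f' := by
    intro g f f' h1 h2 h3 h4
    obtain ⟨e, -, hu⟩ := hA g
    rw [hu f ⟨h1, h3⟩, hu f' ⟨h2, h4⟩]
  -- packing
  have hpack : ∀ g, ∀ p ∈ F0 s (R * M), ∀ p' ∈ F0 s (R * M), g - p ∈ A → g - p' ∈ A → p = p' := by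
    -- first `p.2 ≤ p'.2`
    have key : ∀ g, ∀ p ∈ F0 s (R * M), ∀ p' ∈ F0 s (R * M), g - p ∈ A → g - p' ∈ A →
        p.2 ≤ p'.2 → p = p' := by
      rintro ⟨k, v⟩ ⟨c, t⟩ hp ⟨c', t'⟩ hp' hA1 hA2 hle
      rw [mem_F0] at hp hp'
      simp only at hp hp' hle
      obtain ⟨hc, ht0, ht1⟩ := hp
      obtain ⟨hc', ht0', ht1'⟩ := hp'
      obtain ⟨m, d, hd, hmd⟩ := exists_decomp hR (t' - t)
      obtain ⟨r1, r2, hr1, hr2, hΓ1, hΓ2, h12⟩ := P2 d hd
      have hm0 : 0 ≤ m := by
        by_contra hneg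
        have h1 : m ≤ -1 := by omega
        have h2 : (R : ℤ) * m ≤ (R : ℤ) * (-1) := mul_le_mul_of_nonneg_left h1 hRZ.le
        have h3 : (d : ℤ) < R := by exact_mod_cast hd
        linarith
      have hmM : m < M := by
        by_contra hge
        rw [not_lt] at hge
        have h2 : (R : ℤ) * M ≤ (R : ℤ) * m := mul_le_mul_of_nonneg_left hge hRZ.le
        push_cast at ht1'
        have : (0 : ℤ) ≤ d := by positivity
        linarith
      have hf1 : (c, (R : ℤ) * 0 + r1) ∈ mkTile R Γ := by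
        rw [mem_mkTile]
        refine ⟨r1, hr1, 0, ?_, rfl⟩
        rw [hΓ1, mem_F0]
        exact ⟨hc, le_refl _, hMZ⟩
      have hf2 : (c', (R : ℤ) * m + r2) ∈ mkTile R Γ := by
        rw [mem_mkTile]
        refine ⟨r2, hr2, m, ?_, rfl⟩
        rw [hΓ2, mem_F0]
        exact ⟨hc', hm0, hmM⟩
      have h3 := huni (k, v - t + r1) _ _ hf1 hf2 (by
        have : (k, v - t + (r1 : ℤ)) - (c, (R : ℤ) * 0 + r1) = (k, v) - (c, t) := by
          rw [Prod.mk_sub_mk, Prod.mk_sub_mk]
          congr 1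
          ring
        rw [this]
        exact hA1) (by
        have : (k, v - t + (r1 : ℤ)) - (c', (R : ℤ) * m + r2) = (k, v) - (c', t') := by
          rw [Prod.mk_sub_mk, Prod.mk_sub_mk]
          congr 1
          rw [h12]
          push_cast
          linarith
        rw [this]
        exact hA2)
      obtain ⟨h4, h5⟩ := Prod.mk.inj h3
      obtain ⟨h6, h7⟩ := decomp_unique hr1 hr2 h5
      have h8 : d = 0 := by omega
      rw [h8, ← h6] at hmd
      simp only [mul_zero, Nat.cast_zero, add_zero] at hmd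
      have h9 : t = t' := by linarith
      rw [h4, h9]
    intro g p hp p' hp' h1 h2
    rcases le_total p.2 p'.2 with h | h
    · exact key g p hp p' hp' h1 h2 h
    · exact (key g p' hp' p hp h2 h1 h).symm
  -- the packing is a tiling
  obtain ⟨H, hH, hHA⟩ := hper
  have htile : Tiles A (F0 s (R * M) : Set (K × ℤ)) := by
    obtain ⟨Q, _, _, π, B, hπ, hAB⟩ := exists_quotient H hH A hHA
    refine tiles_of_packing π hπ A B hAB (mkTile R Γ) _ ?_ hA hpack
    rw [card_F0 hs]
    exact card_mkTile_le P1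
  -- lines
  let L : K → ℤ → Prop := fun k v => ∃ c, (c = 0 ∨ c = s) ∧ (k - c, v) ∈ A
  -- two elements of a line at distance < R M are equal
  have hclose : ∀ k v v', L k v → L k v' → v ≤ v' → v' < v + R * M → v = v' := by
    rintro k v v' ⟨c, hc, hcA⟩ ⟨c', hc', hcA'⟩ h1 h2
    have h3 := hpack (k, v') (c, v' - v) (by
        rw [mem_F0]
        refine ⟨hc, ?_, ?_⟩
        · simp only
          linarith
        · push_cast
          linarith) (c', 0) (by
        rw [mem_F0]
        refine ⟨hc', le_refl _, ?_⟩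
        simp only
        exact_mod_cast hRM) (by
        have : (k, v') - (c, v' - v) = (k - c, v) := by
          rw [Prod.mk_sub_mk]
          congr 1
          ring
        rw [this]
        exact hcA) (by
        have : (k, v') - (c', (0 : ℤ)) = (k - c', v') := by
          rw [Prod.mk_sub_mk, sub_zero]
        rw [this]
        exact hcA')
    have h4 := (Prod.mk.inj h3).2
    linarith
  have hcover : ∀ k t, ∃ c τ, (c = 0 ∨ c = s) ∧ 0 ≤ τ ∧ τ < (R : ℤ) * M ∧ (k - c, t - τ) ∈ A := by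
    intro k t
    obtain ⟨⟨c, τ⟩, ⟨h1, h2⟩, -⟩ := htile (k, t)
    rw [Finset.mem_coe, mem_F0] at h1
    refine ⟨c, τ, h1.1, h1.2.1, ?_, h2⟩
    have := h1.2.2
    push_cast at this
    exact this
  have hstep : ∀ k v, L k v → L k (v + R * M) := by
    intro k v hv
    obtain ⟨c, τ, hc, h0, h1, hA1⟩ := hcover k (v + R * M)
    have hL : L k (v + R * M - τ) := ⟨c, hc, hA1⟩
    rcases eq_or_lt_of_le h0 with h | h
    · rw [← h, sub_zero] at hL
      exact hL
    · exfalso
      have := hclose k v (v + R * M - τ) hv hL (by linarith) (by linarith)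
      linarith
  have hstep' : ∀ k v (j : ℕ), L k v → L k (v + R * M * j) := by
    intro k v j hv
    induction j with
    | zero => simpa using hv
    | succ j ih =>
      have := hstep k _ ih
      push_cast
      have e : v + (R : ℤ) * M * (j + 1) = v + R * M * j + R * M := by ring
      rw [e]
      exact this
  have hRMZ : (0 : ℤ) < (R : ℤ) * M := mul_pos hRZ hMZ
  have hmod : ∀ k v v', L k v → L k v' → v ≤ v' → (R : ℤ) ∣ v' - v := by
    intro k v v' hv hv' hle
    obtain ⟨j, hj⟩ : ∃ j : ℕ, (j : ℤ) = (v' - v) / (R * M) :=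
      ⟨((v' - v) / (R * M)).toNat, Int.toNat_of_nonneg (Int.ediv_nonneg (by linarith) hRMZ.le)⟩
    have h1 := Int.mul_ediv_add_emod (v' - v) ((R : ℤ) * M)
    have h2 := Int.emod_lt_of_pos (v' - v) hRMZ
    have h3 := Int.emod_nonneg (v' - v) hRMZ.ne'
    rw [← hj] at h1
    have h4 := hclose k (v + R * M * j) v' (hstep' k v j hv) hv' (by linarith) (by linarith)
    refine ⟨M * j, ?_⟩
    linarith
  have hmod' : ∀ k v v', L k v → L k v' → (R : ℤ) ∣ v' - v := by
    intro k v v' hv hv'
    rcases le_total v v' with h | h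
    · exact hmod k v v' hv hv' h
    · have := hmod k v' v hv' hv h
      rw [← neg_sub]
      exact (dvd_neg).mpr this
  -- a representative on every line
  have hV : ∀ k, ∃ v, L k v := by
    intro k
    obtain ⟨c, τ, hc, -, -, hA1⟩ := hcover k 0
    exact ⟨0 - τ, c, hc, hA1⟩
  choose V hV using hV
  -- covering of a residue class
  have hres : ∀ k t, (R : ℤ) ∣ t - V k → ∃ c u, (c = 0 ∨ c = s) ∧ 0 ≤ u ∧ u < (M : ℤ) ∧
      (k - c, t - R * u) ∈ A := by
    intro k t hdvd
    obtain ⟨c, τ, hc, h0, h1, hA1⟩ := hcover k t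
    have hL : L k (t - τ) := ⟨c, hc, hA1⟩
    have h2 := hmod' k (V k) (t - τ) (hV k) hL
    have h3 : (R : ℤ) ∣ τ := by
      have : τ = (t - V k) - (t - τ - V k) := by ring
      rw [this]
      exact dvd_sub hdvd h2
    obtain ⟨u, rfl⟩ := h3
    refine ⟨c, u, hc, ?_, ?_, hA1⟩
    · by_contra hneg
      have h4 : u ≤ -1 := by omega
      have h5 : (R : ℤ) * u ≤ (R : ℤ) * (-1) := mul_le_mul_of_nonneg_left h4 hRZ.le
      linarith
    · by_contra hge
      rw [not_lt] at hge
      have h5 : (R : ℤ) * M ≤ (R : ℤ) * u := mul_le_mul_of_nonneg_left hge hRZ.le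
      linarith
  -- neighbouring lines
  have hnb : ∀ e ∈ gens, ∀ k, (R : ℤ) ∣ V k - V (k - e) := by
    intro e he k
    by_contra hnd
    obtain ⟨q, d, hd, hqd⟩ := exists_decomp hR (V k - V (k - e))
    have hd0 : 0 < d := by
      rcases Nat.eq_zero_or_pos d with h | h
      · exfalso
        apply hnd
        rw [hqd, h]
        simp
      · exact h
    obtain ⟨r0, rb, hr0, hrb, hΓ0, hΓb, hrel⟩ := P4 e he d hd0 hd
    -- first covering
    obtain ⟨c, u, hc, hu0, hu1, hA1⟩ := hres k (V k) (by simp)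
    -- second covering
    have hdv : (R : ℤ) ∣ V k + r0 - rb - V (k - e) := by
      rcases hrel with h | h
      · refine ⟨q, ?_⟩
        have : (rb : ℤ) = r0 + d := by exact_mod_cast h
        linarith
      · refine ⟨q + 1, ?_⟩
        have : (rb : ℤ) + R = r0 + d := by exact_mod_cast h
        linarith
    obtain ⟨c', u', hc', hu0', hu1', hA2⟩ := hres (k - e) (V k + r0 - rb) hdv
    have h3 := huni (k, V k + r0) (c, (R : ℤ) * u + r0) (c' + e, (R : ℤ) * u' + rb) (by
        rw [mem_mkTile]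
        refine ⟨r0, hr0, u, ?_, rfl⟩
        rw [hΓ0, mem_F0]
        exact ⟨hc, hu0, hu1⟩) (by
        rw [mem_mkTile]
        refine ⟨rb, hrb, u', ?_, rfl⟩
        rw [hΓb, mem_F0t, mem_F0]
        refine ⟨?_, hu0', hu1'⟩
        simpa using hc') (by
        have : (k, V k + (r0 : ℤ)) - (c, (R : ℤ) * u + r0) = (k - c, V k - R * u) := by
          rw [Prod.mk_sub_mk]
          congr 1
          ring
        rw [this]
        exact hA1) (by
        have : (k, V k + (r0 : ℤ)) - (c' + e, (R : ℤ) * u' + rb) =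
            (k - e - c', V k + r0 - rb - R * u') := by
          rw [Prod.mk_sub_mk]
          congr 1
          · abel
          · ring
        rw [this]
        exact hA2)
    have h4 := (decomp_unique hr0 hrb (Prod.mk.inj h3).2).2
    omega
  -- all lines
  let S : AddSubgroup K :=
    { carrier := {h | ∀ k, (R : ℤ) ∣ V k - V (k - h)}
      add_mem' := by
        intro a b ha hb k
        have h1 := ha k
        have h2 := hb (k - a)
        have h3 : k - a - b = k - (a + b) := by abel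
        rw [h3] at h2
        have : V k - V (k - (a + b)) = (V k - V (k - a)) + (V (k - a) - V (k - (a + b))) := by ring
        rw [this]
        exact dvd_add h1 h2
      zero_mem' := by
        intro k
        simp
      neg_mem' := by
        intro a ha k
        have h1 := ha (k - -a)
        have h3 : k - -a - a = k := by abel
        rw [h3] at h1
        rw [← neg_sub]
        exact (dvd_neg).mpr h1 }
  have hS : S = ⊤ := by
    rw [eq_top_iff, ← hgens, AddSubgroup.closure_le]
    intro e he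
    exact hnb e he
  have hV0 : ∀ k, (R : ℤ) ∣ V k - V 0 := by
    intro k
    have h1 : k ∈ S := by rw [hS]; exact AddSubgroup.mem_top k
    have h2 : (R : ℤ) ∣ V k - V (k - k) := h1 k
    rwa [sub_self] at h2
  have hall : ∀ k v, (k, v) ∈ A → (R : ℤ) ∣ v - V 0 := by
    intro k v hkv
    have h1 : L k v := ⟨0, Or.inl rfl, by rwa [sub_zero]⟩
    have h2 := hmod' k (V k) v (hV k) h1
    have : v - V 0 = (v - V k) + (V k - V 0) := by ring
    rw [this]
    exact dvd_add h2 (hV0 k)
  -- the solution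
  let fR : K × ℤ →+ K × ℤ :=
    AddMonoidHom.prodMap (AddMonoidHom.id K) (AddMonoidHom.mulLeft (R : ℤ))
  have hfin : (H.comap fR).FiniteIndex := by
    constructor
    rw [AddSubgroup.index_comap]
    exact (inferInstance : (H.addSubgroupOf fR.range).FiniteIndex).index_ne_zero
  refine ⟨{g | (g.1, (R : ℤ) * g.2 + V 0) ∈ A}, ⟨H.comap fR, hfin, ?_⟩, ?_⟩
  · rintro ⟨h, w⟩ hhw ⟨k, u⟩ hku
    have h0 : (h, (R : ℤ) * w) ∈ H := hhw
    have h1 := hHA _ h0 _ hku
    have h2 : (k, (R : ℤ) * u + V 0) + (h, (R : ℤ) * w) =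
        (k + h, (R : ℤ) * (u + w) + V 0) := by
      rw [Prod.mk_add_mk]
      congr 1
      ring
    have h3 : ((k, u).1, (R : ℤ) * (k, u).2 + V 0) + (h, (R : ℤ) * w) =
        (k + h, (R : ℤ) * (u + w) + V 0) := h2
    rw [h3] at h1
    exact h1
  · rintro r hr ⟨k, v⟩
    obtain ⟨⟨c, w⟩, ⟨h1, h2⟩, huniq⟩ := hA (k, (R : ℤ) * v + V 0 + r)
    rw [Finset.mem_coe, mem_mkTile] at h1
    obtain ⟨r', hr', u, h3, h4⟩ := h1
    simp only at h3 h4
    subst h4
    rw [Prod.mk_sub_mk] at h2
    have h5 := hall _ _ h2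
    have h6 : r' = r := by
      obtain ⟨z, hz⟩ := h5
      have : (R : ℤ) * (v - u) + r = (R : ℤ) * z + r' := by linarith
      exact (decomp_unique hr hr' this).2.symm
    subst h6
    refine ⟨(c, u), ⟨h3, ?_⟩, ?_⟩
    · have e : (k - c, (R : ℤ) * v + V 0 + r' - (R * u + r')) =
          (k - c, (R : ℤ) * (v - u) + V 0) := by
        congr 1
        ring
      rw [e] at h2
      exact h2
    · rintro ⟨c', u'⟩ ⟨h7, h8⟩
      have h9 : (k - c', (R : ℤ) * (v - u') + V 0) ∈ A := h8
      have h10 := huniq (c', (R : ℤ) * u' + r') ⟨by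
        rw [Finset.mem_coe, mem_mkTile]
        exact ⟨r', hr', u', h7, rfl⟩, by
        have e : (k, (R : ℤ) * v + V 0 + r') - (c', (R : ℤ) * u' + r') =
            (k - c', (R : ℤ) * (v - u') + V 0) := by
          rw [Prod.mk_sub_mk]
          congr 1
          ring
        rw [e]
        exact h9⟩
      obtain ⟨h11, h12⟩ := Prod.mk.inj h10
      rw [h11, (decomp_unique hr' hr' h12).1]

/-! ## the arrangement of the pool -/

theorem exists_col {n l i : ℕ} (hl : l < n) (hi : i < n) :
    ∃ j, 1 ≤ j ∧ j ≤ n ∧ (l + j) % n = i := by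
  refine ⟨(i + n - l - 1) % n + 1, by omega, ?_, ?_⟩
  · have := Nat.mod_lt (i + n - l - 1) (by omega : 0 < n)
    omega
  · have h1 : l + ((i + n - l - 1) % n + 1) = (l + 1) + (i + n - l - 1) % n := by ring
    rw [h1, Nat.add_mod_mod]
    have h2 : l + 1 + (i + n - l - 1) = i + n := by omega
    rw [h2, Nat.add_mod_right, Nat.mod_eq_of_lt hi]

theorem exists_row {n j i : ℕ} (hj : j ≤ n) (hi : i < n) :
    ∃ l, l < n ∧ (l + j) % n = i := by
  refine ⟨(i + n - j) % n, Nat.mod_lt _ (by omega), ?_⟩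
  rw [Nat.mod_add_mod]
  have h2 : i + n - j + j = i + n := by omega
  rw [h2, Nat.add_mod_right, Nat.mod_eq_of_lt hi]

/-- the arrangement -/
def arr (s : K) (M : ℕ) (P : List (Finset (K × ℤ))) (r : ℕ) : Finset (K × ℤ) :=
  if r % (P.length + 1) = 0 ∨ r / (P.length + 1) = P.length then F0 s M
  else P.getD ((r / (P.length + 1) + r % (P.length + 1)) % P.length) (F0 s M)

theorem div_mod_aux {n l j : ℕ} (hj : j ≤ n) :
    ((n + 1) * l + j) / (n + 1) = l ∧ ((n + 1) * l + j) % (n + 1) = j := by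
  constructor
  · rw [Nat.mul_add_div (by omega), Nat.div_eq_of_lt (by omega), add_zero]
  · rw [Nat.mul_add_mod, Nat.mod_eq_of_lt (by omega)]

theorem arr_zero (s : K) (M : ℕ) (P : List (Finset (K × ℤ))) (l : ℕ) :
    arr s M P ((P.length + 1) * l) = F0 s M := by
  unfold arr
  rw [if_pos (Or.inl (Nat.mul_mod_right _ _))]

theorem arr_last (s : K) (M : ℕ) (P : List (Finset (K × ℤ))) {j : ℕ} (hj : j ≤ P.length) :
    arr s M P ((P.length + 1) * P.length + j) = F0 s M := by
  unfold arr
  rw [if_pos (Or.inr (div_mod_aux hj).1)]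

theorem arr_mid (s : K) (M : ℕ) (P : List (Finset (K × ℤ))) {l j i : ℕ} (hl : l < P.length)
    (hj1 : 1 ≤ j) (hj : j ≤ P.length) (hi : i < P.length) (h : (l + j) % P.length = i) :
    arr s M P ((P.length + 1) * l + j) = P[i] := by
  unfold arr
  rw [(div_mod_aux hj).1, (div_mod_aux hj).2, if_neg (by omega), h,
    List.getD_eq_getElem _ _ hi]

theorem card_arr_le {s : K} (hs : s ≠ 0) (M : ℕ) (P : List (Finset (K × ℤ)))
    (hP : ∀ E ∈ P, E.card ≤ 2 * M) (r : ℕ) : (arr s M P r).card ≤ 2 * M := by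
  unfold arr
  split
  · exact (card_F0 hs M).le
  · rcases lt_or_ge ((r / (P.length + 1) + r % (P.length + 1)) % P.length) P.length with h | h
    · rw [List.getD_eq_getElem _ _ h]
      exact hP _ (List.getElem_mem h)
    · rw [List.getD_eq_default _ _ h]
      exact (card_F0 hs M).le

theorem lt_sq_aux {n l j : ℕ} (hl : l ≤ n) (hj : j ≤ n) :
    (n + 1) * l + j < (n + 1) * (n + 1) := by
  have h1 : (n + 1) * l ≤ (n + 1) * n := Nat.mul_le_mul_left _ hl
  have h2 : (n + 1) * (n + 1) = (n + 1) * n + (n + 1) := by ring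
  omega

theorem tiles_F0t {s : K} {M : ℕ} {A : Set (K × ℤ)} (h : Tiles A (F0 s M : Set (K × ℤ))) (e : K) :
    Tiles A (F0t s M e : Set (K × ℤ)) := by
  rintro ⟨k, v⟩
  obtain ⟨⟨c, u⟩, ⟨h1, h2⟩, h3⟩ := h (k - e, v)
  refine ⟨(c + e, u), ⟨?_, ?_⟩, ?_⟩
  · rw [Finset.mem_coe, mem_F0t]
    simpa using h1
  · have : (k, v) - (c + e, u) = (k - e, v) - (c, u) := by
      rw [Prod.mk_sub_mk, Prod.mk_sub_mk]
      congr 1
      abel
    rw [this]
    exact h2
  · rintro ⟨c', u'⟩ ⟨h4, h5⟩
    rw [Finset.mem_coe, mem_F0t] at h4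
    have h6 := h3 (c' - e, u') ⟨h4, by
      have : (k - e, v) - (c' - e, u') = (k, v) - (c', u') := by
        rw [Prod.mk_sub_mk, Prod.mk_sub_mk]
        congr 1
        abel
      rw [this]
      exact h5⟩
    obtain ⟨h7, h8⟩ := Prod.mk.inj h6
    rw [h8, ← h7]
    congr 1
    abel

/-- **layer 3**: the tiling equations by the sets of the pool (and by `F0`) are encoded by one
tile -/
theorem one_tile (gens : List K) (hne : gens ≠ [])
    (hgens : AddSubgroup.closure {e | e ∈ gens} = ⊤) {s : K} (hs : s ≠ 0) {M : ℕ} (hM : 0 < M)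
    (pool : List (Finset (K × ℤ))) (hcard : ∀ E ∈ pool, E.card ≤ 2 * M) :
    ∃ F : Finset (K × ℤ),
      ((∃ A : Set (K × ℤ), Tiles A (F0 s M : Set (K × ℤ)) ∧
        ∀ E ∈ pool, Tiles A (E : Set (K × ℤ))) → ∃ A : Set (K × ℤ), Tiles A (F : Set (K × ℤ))) ∧
      ∀ A : Set (K × ℤ), Tiles A (F : Set (K × ℤ)) → Per A →
        ∃ A1 : Set (K × ℤ), Per A1 ∧ Tiles A1 (F0 s M : Set (K × ℤ)) ∧
          ∀ E ∈ pool, Tiles A1 (E : Set (K × ℤ)) := by
  classical
  set P : List (Finset (K × ℤ)) := gens.map (F0t s M) ++ pool with hP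
  set n := P.length with hn
  have hn1 : 1 ≤ n := by
    rw [hn, hP, List.length_append, List.length_map]
    have := List.length_pos_of_ne_nil hne
    omega
  have hPcard : ∀ E ∈ P, E.card ≤ 2 * M := by
    intro E hE
    rw [hP, List.mem_append] at hE
    rcases hE with hE | hE
    · obtain ⟨e, -, rfl⟩ := List.mem_map.mp hE
      exact card_F0t_le hs M e
    · exact hcard E hE
  set R := (n + 1) * (n + 1) with hR
  have hR0 : 0 < R := by rw [hR]; positivity
  refine ⟨mkTile R (arr s M P), ?_, ?_⟩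
  · rintro ⟨A, hA0, hA⟩
    refine mkTile_tiles hR0 A fun r _ => ?_
    unfold arr
    split
    · exact hA0
    · have hall : ∀ E ∈ P, Tiles A (E : Set (K × ℤ)) := by
        intro E hE
        rw [hP, List.mem_append] at hE
        rcases hE with hE | hE
        · obtain ⟨e, -, rfl⟩ := List.mem_map.mp hE
          exact tiles_F0t hA0 e
        · exact hA E hE
      rcases lt_or_ge ((r / (P.length + 1) + r % (P.length + 1)) % P.length) P.length with h | h
      · rw [List.getD_eq_getElem _ _ h]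
        exact hall _ (List.getElem_mem h)
      · rw [List.getD_eq_default _ _ h]
        exact hA0
  · intro A hA hper
    have hidx : ∀ E ∈ P, ∃ i, ∃ h : i < n, P[i] = E := by
      intro E hE
      obtain ⟨i, hi, h⟩ := List.getElem_of_mem hE
      exact ⟨i, hi, h⟩
    obtain ⟨A1, hA1, hT⟩ := tiles_of_mkTile hR0 hM hs (Γ := arr s M P) {e | e ∈ gens} hgens
      (fun r _ => card_arr_le hs M P hPcard r)
      (by
        intro d hd
        have hm : d / (n + 1) ≤ n := by
          have : d / (n + 1) < n + 1 := Nat.div_lt_of_lt_mul hd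
          omega
        have hj : d % (n + 1) ≤ n := by
          have := Nat.mod_lt d (by omega : 0 < n + 1)
          omega
        refine ⟨(n + 1) * (n - d / (n + 1)), (n + 1) * n + d % (n + 1), ?_, lt_sq_aux le_rfl hj,
          arr_zero s M P _, arr_last s M P hj, ?_⟩
        · exact lt_sq_aux (n := n) (l := n - d / (n + 1)) (j := 0) (Nat.sub_le _ _)
            (Nat.zero_le _)
        · have h1 := Nat.div_add_mod d (n + 1)
          have h2 : (n + 1) * n = (n + 1) * (n - d / (n + 1)) + (n + 1) * (d / (n + 1)) := by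
            rw [← Nat.mul_add, Nat.sub_add_cancel hm]
          omega)
      (by
        intro e he d hd0 hd
        have heP : F0t s M e ∈ P := by
          rw [hP, List.mem_append]
          exact Or.inl (List.mem_map.mpr ⟨e, he, rfl⟩)
        obtain ⟨i, hi, hiP⟩ := hidx _ heP
        have hm : d / (n + 1) ≤ n := by
          have : d / (n + 1) < n + 1 := Nat.div_lt_of_lt_mul hd
          omega
        have hj : d % (n + 1) ≤ n := by
          have := Nat.mod_lt d (by omega : 0 < n + 1)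
          omega
        have hdm := Nat.div_add_mod d (n + 1)
        set m := d / (n + 1) with hmdef
        set j := d % (n + 1) with hjdef
        rcases Nat.eq_zero_or_pos j with h0 | h0
        · -- `d = (n + 1) m`
          have hm1 : 1 ≤ m := by
            rcases Nat.eq_zero_or_pos m with h | h
            · rw [h, h0] at hdm
              omega
            · exact h
          obtain ⟨jj, hjj1, hjj, hji⟩ := exists_col (n := n) (l := m - 1) (i := i) (by omega) hi
          refine ⟨(n + 1) * n + jj, (n + 1) * (m - 1) + jj, lt_sq_aux le_rfl hjj,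
            lt_sq_aux (by omega) hjj, arr_last s M P hjj, ?_, Or.inr ?_⟩
          · rw [arr_mid s M P (by omega) hjj1 hjj hi hji]
            exact hiP
          · obtain ⟨m', hm'⟩ : ∃ m', m = m' + 1 := ⟨m - 1, by omega⟩
            rw [h0, add_zero, hm'] at hdm
            rw [← hdm, hR, hm', Nat.add_sub_cancel]
            ring
        · obtain ⟨l, hl, hli⟩ := exists_row (n := n) (j := j) (i := i) hj hi
          rcases le_or_gt m l with hml | hml
          · refine ⟨(n + 1) * (l - m), (n + 1) * l + j, ?_, lt_sq_aux hl.le hj,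
              arr_zero s M P _, ?_, Or.inl ?_⟩
            · exact lt_sq_aux (n := n) (l := l - m) (j := 0)
                ((Nat.sub_le _ _).trans hl.le) (Nat.zero_le _)
            · rw [arr_mid s M P hl h0 hj hi hli]
              exact hiP
            · have h2 : (n + 1) * l = (n + 1) * (l - m) + (n + 1) * m := by
                rw [← Nat.mul_add, Nat.sub_add_cancel hml]
              omega
          · refine ⟨(n + 1) * (l + n + 1 - m), (n + 1) * l + j, ?_, lt_sq_aux hl.le hj,
              arr_zero s M P _, ?_, Or.inr ?_⟩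
            · exact lt_sq_aux (n := n) (l := l + n + 1 - m) (j := 0) (by omega) (Nat.zero_le _)
            · rw [arr_mid s M P hl h0 hj hi hli]
              exact hiP
            · have h2 : (n + 1) * (l + n + 1) = (n + 1) * (l + n + 1 - m) + (n + 1) * m := by
                rw [← Nat.mul_add, Nat.sub_add_cancel (by omega)]
              have h3 : (n + 1) * (l + n + 1) = (n + 1) * l + R := by
                rw [hR]
                ring
              omega)
      A hA hper
    have hT' : ∀ E ∈ P, Tiles A1 (E : Set (K × ℤ)) := by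
      intro E hE
      obtain ⟨i, hi, hiP⟩ := hidx E hE
      obtain ⟨j, hj1, hj, hji⟩ := exists_col (n := n) (l := 0) (i := i) (by omega) hi
      have h1 := hT _ (lt_sq_aux (n := n) (l := 0) (j := j) (Nat.zero_le _) hj)
      rw [arr_mid s M P (by omega) hj1 hj hi hji, hiP] at h1
      exact h1
    refine ⟨A1, hA1, ?_, fun E hE => hT' E (by rw [hP, List.mem_append]; exact Or.inr hE)⟩
    have h1 := hT _ (lt_sq_aux (n := n) (l := 0) (j := 0) (Nat.zero_le _) (Nat.zero_le _))
    have h2 : arr s M P ((n + 1) * 0 + 0) = F0 s M := arr_zero s M P 0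
    rw [h2] at h1
    exact h1

end tile

end

end Vale.Agent.P043.OneTile
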